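import Mathlib

set_option linter.unusedSectionVars false
set_option linter.unusedVariables false

/-!
Combinatorics of the square lattice: balls, disjoint balls of one colour class, and the count of sites
close to the edge boundary.
-/

namespace Vale.Agent.Lib.P356

open Finset

/-- The square lattice `Λ_L`. -/
abbrev Site (L : ℕ) := Fin L × Fin L

/-- The `ℓ¹` distance on the square lattice. -/
def dist1 {L : ℕ} (x y : Site L) : ℕ := Nat.dist x.1.val y.1.val + Nat.dist x.2.val y.2.val

/-- The edge boundary of a subset of the lattice: pairs `(x, y)` of adjacent sites, `x ∈ A`, `y ∉ A`. -/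
def edgeBoundary {L : ℕ} (A : Finset (Site L)) : Finset (Site L × Site L) :=
  (A ×ˢ Aᶜ).filter fun p => dist1 p.1 p.2 = 1

variable {L : ℕ}

lemma dist1_self (x : Site L) : dist1 x x = 0 := by
  simp [dist1, Nat.dist]

lemma dist1_comm (x y : Site L) : dist1 x y = dist1 y x := by
  simp only [dist1, Nat.dist]
  omega

lemma dist1_triangle (x y z : Site L) : dist1 x z ≤ dist1 x y + dist1 y z := by
  simp only [dist1, Nat.dist]
  omega

lemma dist1_eq_zero {x y : Site L} (h : dist1 x y = 0) : x = y := by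
  simp only [dist1, Nat.dist] at h
  apply Prod.ext <;> apply Fin.ext <;> omega

/-- A site one step closer to `z`. -/
lemma exists_step {x z : Site L} (h : x ≠ z) : ∃ x', dist1 x x' = 1 ∧ dist1 x' z + 1 = dist1 x z := by
  obtain ⟨⟨x1, hx1⟩, ⟨x2, hx2⟩⟩ := x
  obtain ⟨⟨z1, hz1⟩, ⟨z2, hz2⟩⟩ := z
  by_cases h1 : x1 < z1
  · refine ⟨(⟨x1 + 1, by omega⟩, ⟨x2, hx2⟩), ?_, ?_⟩ <;> simp only [dist1, Nat.dist] <;> omega
  by_cases h2 : z1 < x1
  · refine ⟨(⟨x1 - 1, by omega⟩, ⟨x2, hx2⟩), ?_, ?_⟩ <;> simp only [dist1, Nat.dist] <;> omega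
  by_cases h3 : x2 < z2
  · refine ⟨(⟨x1, hx1⟩, ⟨x2 + 1, by omega⟩), ?_, ?_⟩ <;> simp only [dist1, Nat.dist] <;> omega
  by_cases h4 : z2 < x2
  · refine ⟨(⟨x1, hx1⟩, ⟨x2 - 1, by omega⟩), ?_, ?_⟩ <;> simp only [dist1, Nat.dist] <;> omega
  exfalso
  apply h
  have e1 : x1 = z1 := by omega
  have e2 : x2 = z2 := by omega
  subst e1
  subst e2
  rfl

/-- Walking from `x ∈ A` to `z ∉ A` one crosses the boundary within the walked distance. -/
lemma exists_boundary (A : Finset (Site L)) : ∀ (d : ℕ) (x z : Site L), x ∈ A → z ∉ A → dist1 x z = d →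
    ∃ u v, u ∈ A ∧ v ∉ A ∧ dist1 u v = 1 ∧ dist1 x u ≤ d := by
  intro d
  induction d with
  | zero =>
    intro x z hx hz hd
    exact absurd (dist1_eq_zero hd ▸ hx) hz
  | succ d ih =>
    intro x z hx hz hd
    have hne : x ≠ z := by
      rintro rfl
      exact hz hx
    obtain ⟨x', h1, h2⟩ := exists_step hne
    by_cases hx' : x' ∈ A
    · obtain ⟨u, v, hu, hv, huv, hxu⟩ := ih x' z hx' hz (by omega)
      refine ⟨u, v, hu, hv, huv, ?_⟩
      have := dist1_triangle x x' u
      omega
    · refine ⟨x, x', hx, hx', h1, ?_⟩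
      rw [dist1_self]
      omega

/-- The `ℓ¹` ball in the lattice. -/
def ball (R : ℕ) (y : Site L) : Finset (Site L) := univ.filter fun x => dist1 y x ≤ R

lemma mem_ball {R : ℕ} {y x : Site L} : x ∈ ball R y ↔ dist1 y x ≤ R := by
  simp [ball]

lemma self_mem_ball (R : ℕ) (y : Site L) : y ∈ ball R y := by
  rw [mem_ball, dist1_self]
  omega

lemma ball_card_le (R : ℕ) (y : Site L) : (ball R y).card ≤ (2 * R + 1) ^ 2 := by
  have : (ball R y).card ≤ (range (2 * R + 1) ×ˢ range (2 * R + 1)).card := by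
    apply Finset.card_le_card_of_injOn
      (fun x => (x.1.val + R - y.1.val, x.2.val + R - y.2.val))
    · intro x hx
      have hx' : dist1 y x ≤ R := mem_ball.1 hx
      simp only [dist1, Nat.dist] at hx'
      simp only [coe_product, coe_range, Set.mem_prod, Set.mem_Iio]
      omega
    · intro x hx x' hx' h
      have hx1 : dist1 y x ≤ R := mem_ball.1 hx
      have hx2 : dist1 y x' ≤ R := mem_ball.1 hx'
      simp only [dist1, Nat.dist] at hx1 hx2
      simp only [Prod.mk.injEq] at h
      apply Prod.ext <;> apply Fin.ext <;> omega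
  simpa [sq] using this

/-- Colour of a site. -/
def colour (R : ℕ) (y : Site L) : ℕ × ℕ := (y.1.val % (2 * R + 1), y.2.val % (2 * R + 1))

lemma coord_eq {R a b z : ℕ} (h : a % (2 * R + 1) = b % (2 * R + 1))
    (h1 : Nat.dist a z ≤ R) (h2 : Nat.dist b z ≤ R) : a = b := by
  have hm : a ≡ b [MOD (2 * R + 1)] := h
  apply hm.eq_of_abs_lt
  simp only [Nat.dist] at h1 h2
  rw [abs_lt]
  constructor <;> push_cast <;> omega

/-- Balls of one colour are disjoint. -/
lemma ball_disjoint {R : ℕ} {y y' : Site L} (hc : colour R y = colour R y') (hne : y ≠ y') :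
    Disjoint (ball R y) (ball R y') := by
  rw [Finset.disjoint_left]
  intro z hz hz'
  have h1 : dist1 y z ≤ R := mem_ball.1 hz
  have h2 : dist1 y' z ≤ R := mem_ball.1 hz'
  simp only [colour, Prod.mk.injEq] at hc
  simp only [dist1] at h1 h2
  apply hne
  apply Prod.ext <;> apply Fin.ext
  · exact coord_eq (z := z.1.val) hc.1 (by omega) (by omega)
  · exact coord_eq (z := z.2.val) hc.2 (by omega) (by omega)

/-- The sites of `A` whose ball stays in `A`. -/
noncomputable def good (R : ℕ) (A : Finset (Site L)) : Finset (Site L) :=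
  A.filter fun y => ball R y ⊆ A

lemma card_sdiff_good (R : ℕ) (A : Finset (Site L)) :
    (A \ good R A).card ≤ (2 * R + 1) ^ 2 * (edgeBoundary A).card := by
  classical
  have hsub : A \ good R A ⊆ (edgeBoundary A).biUnion fun e => ball R e.1 := by
    intro y hy
    have hyA : y ∈ A := (Finset.mem_sdiff.1 hy).1
    have hng : ¬ ball R y ⊆ A := by
      intro h
      exact (Finset.mem_sdiff.1 hy).2 (Finset.mem_filter.2 ⟨hyA, h⟩)
    obtain ⟨z, hz, hzA⟩ := Finset.not_subset.1 hng
    obtain ⟨u, v, hu, hv, huv, hyu⟩ := exists_boundary A _ y z hyA hzA rfl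
    refine Finset.mem_biUnion.2 ⟨(u, v), ?_, ?_⟩
    · simp only [edgeBoundary, Finset.mem_filter, Finset.mem_product, Finset.mem_compl]
      exact ⟨⟨hu, hv⟩, huv⟩
    · rw [mem_ball, dist1_comm]
      exact hyu.trans (mem_ball.1 hz)
  calc (A \ good R A).card ≤ ((edgeBoundary A).biUnion fun e => ball R e.1).card :=
        Finset.card_le_card hsub
    _ ≤ ∑ e ∈ edgeBoundary A, (ball R e.1).card := Finset.card_biUnion_le
    _ ≤ ∑ e ∈ edgeBoundary A, (2 * R + 1) ^ 2 := Finset.sum_le_sum fun e _ => ball_card_le R e.1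
    _ = _ := by
        rw [Finset.sum_const, smul_eq_mul, mul_comm]

/-- A large colour class of good sites. -/
theorem exists_colour_class (R : ℕ) (A : Finset (Site L)) :
    ∃ Y : Finset (Site L), (∀ y ∈ Y, ball R y ⊆ A) ∧
      (∀ y ∈ Y, ∀ y' ∈ Y, y ≠ y' → Disjoint (ball R y) (ball R y')) ∧
      ((A.card : ℝ) ≤ ((2 * R + 1 : ℕ) : ℝ) ^ 2 * (Y.card : ℝ)
        + ((2 * R + 1 : ℕ) : ℝ) ^ 2 * ((edgeBoundary A).card : ℝ)) := by
  classical
  set m := 2 * R + 1 with hm
  have hmpos : 0 < m := by omega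
  set t : Finset (ℕ × ℕ) := range m ×ˢ range m with ht
  have htcard : t.card = m ^ 2 := by
    simp [ht, sq]
  have htne : t.Nonempty := ⟨(0, 0), by simp [ht, hmpos]⟩
  have hmaps : ∀ y ∈ good R A, colour R y ∈ t := by
    intro y _
    simp only [ht, colour, Finset.mem_product, Finset.mem_range]
    exact ⟨Nat.mod_lt _ hmpos, Nat.mod_lt _ hmpos⟩
  have hmR : (0 : ℝ) < (m : ℝ) := by exact_mod_cast hmpos
  have hb : t.card • (((good R A).card : ℝ) / ((m : ℝ) ^ 2)) ≤ ((good R A).card : ℝ) := by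
    rw [htcard, nsmul_eq_mul]
    push_cast
    rw [mul_div_cancel₀]
    positivity
  obtain ⟨c, _, hc⟩ := Finset.exists_le_card_fiber_of_nsmul_le_card_of_maps_to hmaps htne hb
  refine ⟨(good R A).filter fun y => colour R y = c, ?_, ?_, ?_⟩
  · intro y hy
    exact (Finset.mem_filter.1 (Finset.mem_filter.1 hy).1).2
  · intro y hy y' hy' hne
    apply ball_disjoint _ hne
    rw [(Finset.mem_filter.1 hy).2, (Finset.mem_filter.1 hy').2]
  · have h1 := card_sdiff_good R A
    have h2 : (A.card : ℝ) ≤ ((good R A).card : ℝ) + ((A \ good R A).card : ℝ) := by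
      have : A.card = (good R A).card + (A \ good R A).card := by
        rw [add_comm]
        exact (Finset.card_sdiff_add_card_eq_card (Finset.filter_subset _ _)).symm
      rw [this]
      push_cast
      exact le_refl _
    have h3 : ((A \ good R A).card : ℝ) ≤ (m : ℝ) ^ 2 * ((edgeBoundary A).card : ℝ) := by
      exact_mod_cast h1
    have h4 : ((good R A).card : ℝ) ≤ (m : ℝ) ^ 2 *
        (((good R A).filter fun y => colour R y = c).card : ℝ) := by
      rw [div_le_iff₀ (by positivity)] at hc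
      linarith
    linarith

end Vale.Agent.Lib.P356
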