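import Mathlib

set_option linter.unusedSectionVars false
set_option linter.unusedVariables false

/-!
Von Neumann entropy of finite matrices: subadditivity (via Klein's inequality with eigenbases) and
the deficit bound with respect to the maximally mixed state.
-/

namespace Vale.Agent.Lib.P356

open Finset Matrix
open scoped ComplexOrder Kronecker

variable {n m : Type} [Fintype n] [DecidableEq n] [Fintype m] [DecidableEq m]

/-- Von Neumann entropy of a matrix: the sum of `-x log x` over the roots `x` of its characteristic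
polynomial, with multiplicity. For a Hermitian matrix these are its eigenvalues. -/
noncomputable def vnEntropy (ρ : Matrix n n ℂ) : ℝ :=
  ((ρ.charpoly.roots).map fun z => Real.negMulLog z.re).sum

lemma vnEntropy_eq {ρ : Matrix n n ℂ} (h : ρ.IsHermitian) :
    vnEntropy ρ = ∑ i, Real.negMulLog (h.eigenvalues i) := by
  unfold vnEntropy
  rw [h.roots_charpoly_eq_eigenvalues, Multiset.map_map]
  simp only [Function.comp_apply]
  rfl

lemma vnEntropy_reindex (e : n ≃ m) (ρ : Matrix n n ℂ) :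
    vnEntropy (Matrix.reindex e e ρ) = vnEntropy ρ := by
  unfold vnEntropy
  rw [Matrix.charpoly_reindex]

/-- Partial trace over the second factor. -/
def ptrL (ρ : Matrix (n × m) (n × m) ℂ) : Matrix n n ℂ :=
  Matrix.of fun a b => ∑ c, ρ (a, c) (b, c)

/-- Partial trace over the first factor. -/
def ptrR (ρ : Matrix (n × m) (n × m) ℂ) : Matrix m m ℂ :=
  Matrix.of fun c d => ∑ a, ρ (a, c) (a, d)

lemma ptrL_trace (ρ : Matrix (n × m) (n × m) ℂ) : (ptrL ρ).trace = ρ.trace := by
  simp [ptrL, Matrix.trace, Fintype.sum_prod_type]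

lemma ptrR_trace (ρ : Matrix (n × m) (n × m) ℂ) : (ptrR ρ).trace = ρ.trace := by
  simp only [ptrR, Matrix.trace, Matrix.diag, Matrix.of_apply, Fintype.sum_prod_type]
  exact Finset.sum_comm

section Klein

variable {ρ : Matrix (n × m) (n × m) ℂ}

/-- The pointwise inequality behind Klein's inequality. -/
lemma klein_pt {P lam α β r : ℝ} (hP : 0 ≤ P) (hlam : 0 ≤ lam) (hα : 0 ≤ α) (hβ : 0 ≤ β)
    (hr : lam * P ≤ r) (hrα : r ≤ α) (hrβ : r ≤ β) :
    P * (lam - α * β) ≤ P * (lam * Real.log lam - lam * Real.log (α * β)) := by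
  rcases hP.eq_or_lt with rfl | hP'
  · simp
  rcases hlam.eq_or_lt with rfl | hlam'
  · have : 0 ≤ α * β := mul_nonneg hα hβ
    simp only [zero_sub, zero_mul, sub_zero]
    nlinarith
  have hr0 : 0 < r := lt_of_lt_of_le (mul_pos hlam' hP') hr
  have hα' : 0 < α := lt_of_lt_of_le hr0 hrα
  have hβ' : 0 < β := lt_of_lt_of_le hr0 hrβ
  have hab : 0 < α * β := mul_pos hα' hβ'
  refine mul_le_mul_of_nonneg_left ?_ hP
  have h1 := Real.one_sub_inv_le_log_of_pos (div_pos hlam' hab)
  rw [Real.log_div hlam'.ne' hab.ne', inv_div] at h1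
  have h2 : lam * (1 - α * β / lam) = lam - α * β := by
    field_simp
  have h3 := mul_le_mul_of_nonneg_left h1 hlam
  rw [h2] at h3
  linarith

/-- The classical core: a doubly stochastic matrix between the spectrum of `ρ` and the product of
the spectra of its marginals. -/
lemma klein_core {ι : Type} [Fintype ι] (P : ι → n × m → ℝ) (lam : ι → ℝ) (α : n → ℝ) (β : m → ℝ)
    (hP : ∀ i j, 0 ≤ P i j) (hlam : ∀ i, 0 ≤ lam i) (hα : ∀ i, 0 ≤ α i) (hβ : ∀ i, 0 ≤ β i)
    (hrow : ∀ i, ∑ j, P i j = 1) (hcol : ∀ j, ∑ i, P i j = 1)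
    (hsum : ∑ i, lam i = (∑ k, α k) * ∑ l, β l)
    (hL : ∀ k, ∑ l, ∑ i, lam i * P i (k, l) = α k)
    (hR : ∀ l, ∑ k, ∑ i, lam i * P i (k, l) = β l) :
    ∑ i, Real.negMulLog (lam i) ≤ ∑ k, Real.negMulLog (α k) + ∑ l, Real.negMulLog (β l) := by
  classical
  set r : n × m → ℝ := fun j => ∑ i, lam i * P i j with hr
  have hr0 : ∀ j, 0 ≤ r j := fun j => Finset.sum_nonneg fun i _ => mul_nonneg (hlam i) (hP i j)
  have hrα : ∀ k l, r (k, l) ≤ α k := by
    intro k l
    rw [← hL k]
    exact Finset.single_le_sum (f := fun l' => r (k, l')) (fun l' _ => hr0 (k, l')) (mem_univ l)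
  have hrβ : ∀ k l, r (k, l) ≤ β l := by
    intro k l
    rw [← hR l]
    exact Finset.single_le_sum (f := fun k' => r (k', l)) (fun k' _ => hr0 (k', l)) (mem_univ k)
  have hri : ∀ i j, lam i * P i j ≤ r j := fun i j =>
    Finset.single_le_sum (f := fun i' => lam i' * P i' j)
      (fun i' _ => mul_nonneg (hlam i') (hP i' j)) (mem_univ i)
  -- sum of the pointwise inequalities
  have h1 : ∑ i, ∑ j, P i j * (lam i - α j.1 * β j.2)
      ≤ ∑ i, ∑ j, P i j * (lam i * Real.log (lam i) - lam i * Real.log (α j.1 * β j.2)) :=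
    Finset.sum_le_sum fun i _ => Finset.sum_le_sum fun j _ =>
      klein_pt (hP i j) (hlam i) (hα _) (hβ _) (hri i j) (hrα _ _) (hrβ _ _)
  have h2 : ∑ i, ∑ j, P i j * (lam i - α j.1 * β j.2) = 0 := by
    have h3 : ∑ i, ∑ j, P i j * (lam i - α j.1 * β j.2)
        = ∑ i, lam i * ∑ j, P i j - ∑ j, α j.1 * β j.2 * ∑ i, P i j := by
      simp only [Finset.mul_sum]
      have hc : ∑ j, ∑ i, α j.1 * β j.2 * P i j = ∑ i, ∑ j, α j.1 * β j.2 * P i j :=
        Finset.sum_comm
      rw [hc, ← Finset.sum_sub_distrib]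
      refine Finset.sum_congr rfl fun i _ => ?_
      rw [← Finset.sum_sub_distrib]
      refine Finset.sum_congr rfl fun j _ => ?_
      ring
    rw [h3]
    simp only [hrow, hcol, mul_one]
    rw [hsum, Finset.sum_mul_sum, Fintype.sum_prod_type]
    ring
  have h4 : ∑ i, ∑ j, P i j * (lam i * Real.log (lam i) - lam i * Real.log (α j.1 * β j.2))
      = ∑ i, lam i * Real.log (lam i) - ∑ j, r j * Real.log (α j.1 * β j.2) := by
    have h5 : ∑ j, r j * Real.log (α j.1 * β j.2)
        = ∑ i, ∑ j, P i j * (lam i * Real.log (α j.1 * β j.2)) := by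
      simp only [hr, Finset.sum_mul]
      rw [Finset.sum_comm]
      refine Finset.sum_congr rfl fun i _ => Finset.sum_congr rfl fun j _ => ?_
      ring
    have h6 : ∑ i, lam i * Real.log (lam i)
        = ∑ i, ∑ j, P i j * (lam i * Real.log (lam i)) := by
      refine Finset.sum_congr rfl fun i _ => ?_
      rw [← Finset.sum_mul, hrow, one_mul]
    rw [h5, h6, ← Finset.sum_sub_distrib]
    refine Finset.sum_congr rfl fun i _ => ?_
    rw [← Finset.sum_sub_distrib]
    refine Finset.sum_congr rfl fun j _ => ?_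
    ring
  have h7 : ∑ j, r j * Real.log (α j.1 * β j.2)
      = ∑ k, α k * Real.log (α k) + ∑ l, β l * Real.log (β l) := by
    have h8 : ∀ j : n × m, r j * Real.log (α j.1 * β j.2)
        = r j * Real.log (α j.1) + r j * Real.log (β j.2) := by
      rintro ⟨k, l⟩
      by_cases hk : α k = 0
      · have : r (k, l) = 0 := le_antisymm (by simpa [hk] using hrα k l) (hr0 _)
        simp [this]
      by_cases hl : β l = 0
      · have : r (k, l) = 0 := le_antisymm (by simpa [hl] using hrβ k l) (hr0 _)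
        simp [this]
      rw [Real.log_mul hk hl]
      ring
    simp_rw [h8]
    rw [Finset.sum_add_distrib, Fintype.sum_prod_type, Fintype.sum_prod_type]
    congr 1
    · refine Finset.sum_congr rfl fun k _ => ?_
      have e : ∑ y, r (k, y) = α k := hL k
      rw [← e, Finset.sum_mul]
      rw [e]
    · rw [Finset.sum_comm]
      refine Finset.sum_congr rfl fun l _ => ?_
      have e : ∑ x, r (x, l) = β l := hR l
      rw [← e, Finset.sum_mul]
      rw [e]
  rw [h2, h4, h7] at h1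
  simp only [Real.negMulLog]
  have e1 : ∀ (t : ℝ), -t * Real.log t = -(t * Real.log t) := fun t => by ring
  simp only [e1, Finset.sum_neg_distrib]
  linarith

/-- Tracing out after conjugating by a product of matrices, the second one coisometric. -/
lemma sum_diag_conj_L (ρ : Matrix (n × m) (n × m) ℂ) (V : Matrix n n ℂ) (W : Matrix m m ℂ)
    (hW : W * star W = 1) (k : n) :
    ∑ l, (star (V ⊗ₖ W) * ρ * (V ⊗ₖ W)) (k, l) (k, l) = (star V * ptrL ρ * V) k k := by
  have hδ : ∀ b b' : m, ∑ l, W b' l * star (W b l) = if b' = b then 1 else 0 := by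
    intro b b'
    have := congrFun (congrFun hW b') b
    simpa [Matrix.mul_apply, Matrix.star_apply, Matrix.one_apply] using this
  simp only [Matrix.mul_apply, Fintype.sum_prod_type, Matrix.star_apply, Matrix.kroneckerMap_apply,
    ptrL, Matrix.of_apply, star_mul']
  have step : ∀ (a a' : n) (b b' : m), ∑ l, star (V a k) * star (W b l) * ρ (a, b) (a', b') *
        (V a' k * W b' l)
      = star (V a k) * ρ (a, b) (a', b') * V a' k * (if b' = b then 1 else 0) := by
    intro a a' b b'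
    rw [← hδ, Finset.mul_sum]
    refine Finset.sum_congr rfl fun l _ => ?_
    ring
  have h1 : ∀ (l : m) (x : n) (x₁ : m),
      (∑ x₂, ∑ x₃, star (V x₂ k) * star (W x₃ l) * ρ (x₂, x₃) (x, x₁)) * (V x k * W x₁ l)
        = ∑ x₂, ∑ x₃, star (V x₂ k) * star (W x₃ l) * ρ (x₂, x₃) (x, x₁) * (V x k * W x₁ l) := by
    intro l x x₁
    rw [Finset.sum_mul]
    refine Finset.sum_congr rfl fun x₂ _ => ?_
    rw [Finset.sum_mul]
  simp_rw [h1]
  have h2 : ∑ l, ∑ x, ∑ x₁, ∑ x₂, ∑ x₃, star (V x₂ k) * star (W x₃ l) * ρ (x₂, x₃) (x, x₁) *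
        (V x k * W x₁ l)
      = ∑ x, ∑ x₁, ∑ x₂, ∑ x₃, ∑ l, star (V x₂ k) * star (W x₃ l) * ρ (x₂, x₃) (x, x₁) *
        (V x k * W x₁ l) := by
    refine Finset.sum_comm.trans (Finset.sum_congr rfl fun x _ => ?_)
    refine Finset.sum_comm.trans (Finset.sum_congr rfl fun x₁ _ => ?_)
    refine Finset.sum_comm.trans (Finset.sum_congr rfl fun x₂ _ => ?_)
    exact Finset.sum_comm
  rw [h2]
  simp_rw [step]
  refine Finset.sum_congr rfl fun x _ => ?_
  rw [Finset.sum_comm, Finset.sum_mul]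
  refine Finset.sum_congr rfl fun x₂ _ => ?_
  rw [Finset.mul_sum, Finset.sum_mul, Finset.sum_comm]
  refine Finset.sum_congr rfl fun x₃ _ => ?_
  simp

lemma star_kron (V : Matrix n n ℂ) (W : Matrix m m ℂ) : star (V ⊗ₖ W) = star V ⊗ₖ star W := by
  ext p q
  simp [Matrix.star_apply, Matrix.kroneckerMap_apply, star_mul']

lemma kron_one (V V' : Matrix n n ℂ) (W W' : Matrix m m ℂ) (h1 : V * V' = 1) (h2 : W * W' = 1) :
    (V ⊗ₖ W) * (V' ⊗ₖ W') = 1 := by
  rw [← Matrix.mul_kronecker_mul, h1, h2, Matrix.one_kronecker_one]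

/-- The marginal sums for the matrix `Q`. -/
lemma marg_L (ρ : Matrix (n × m) (n × m) ℂ) (V : Matrix n n ℂ) (W : Matrix m m ℂ)
    (hV1 : star V * V = 1) (hW2 : W * star W = 1) (α : n → ℝ)
    (hs : ptrL ρ = V * Matrix.diagonal (fun k => (α k : ℂ)) * star V) (k : n) :
    ∑ l, (star (V ⊗ₖ W) * ρ * (V ⊗ₖ W)) (k, l) (k, l) = (α k : ℂ) := by
  rw [show (∑ l, (star (V ⊗ₖ W) * ρ * (V ⊗ₖ W)) (k, l) (k, l)) = _ from sum_diag_conj_L ρ V W hW2 k,
    hs]
  have : star V * (V * Matrix.diagonal (fun k => (α k : ℂ)) * star V) * V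
      = Matrix.diagonal (fun k => (α k : ℂ)) := by
    calc star V * (V * Matrix.diagonal (fun k => (α k : ℂ)) * star V) * V
        = (star V * V) * Matrix.diagonal (fun k => (α k : ℂ)) * (star V * V) := by noncomm_ring
      _ = _ := by rw [hV1, one_mul, mul_one]
  rw [this]
  simp

lemma sum_diag_conj_R (ρ : Matrix (n × m) (n × m) ℂ) (V : Matrix n n ℂ) (W : Matrix m m ℂ)
    (hV : V * star V = 1) (l : m) :
    ∑ k, (star (V ⊗ₖ W) * ρ * (V ⊗ₖ W)) (k, l) (k, l) = (star W * ptrR ρ * W) l l := by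
  have hδ : ∀ a a' : n, ∑ k, V a' k * star (V a k) = if a' = a then 1 else 0 := by
    intro a a'
    have := congrFun (congrFun hV a') a
    simpa [Matrix.mul_apply, Matrix.star_apply, Matrix.one_apply] using this
  simp only [Matrix.mul_apply, Fintype.sum_prod_type, Matrix.star_apply, Matrix.kroneckerMap_apply,
    ptrR, Matrix.of_apply, star_mul']
  have step : ∀ (a a' : n) (b b' : m), ∑ k, star (V a k) * star (W b l) * ρ (a, b) (a', b') *
        (V a' k * W b' l)
      = star (W b l) * ρ (a, b) (a', b') * W b' l * (if a' = a then 1 else 0) := by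
    intro a a' b b'
    rw [← hδ, Finset.mul_sum]
    refine Finset.sum_congr rfl fun k _ => ?_
    ring
  have h1 : ∀ (k : n) (x : n) (x₁ : m),
      (∑ x₂, ∑ x₃, star (V x₂ k) * star (W x₃ l) * ρ (x₂, x₃) (x, x₁)) * (V x k * W x₁ l)
        = ∑ x₂, ∑ x₃, star (V x₂ k) * star (W x₃ l) * ρ (x₂, x₃) (x, x₁) * (V x k * W x₁ l) := by
    intro k x x₁
    rw [Finset.sum_mul]
    refine Finset.sum_congr rfl fun x₂ _ => ?_
    rw [Finset.sum_mul]
  simp_rw [h1]
  have h2 : ∑ k, ∑ x, ∑ x₁, ∑ x₂, ∑ x₃, star (V x₂ k) * star (W x₃ l) * ρ (x₂, x₃) (x, x₁) *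
        (V x k * W x₁ l)
      = ∑ x, ∑ x₁, ∑ x₂, ∑ x₃, ∑ k, star (V x₂ k) * star (W x₃ l) * ρ (x₂, x₃) (x, x₁) *
        (V x k * W x₁ l) := by
    refine Finset.sum_comm.trans (Finset.sum_congr rfl fun x _ => ?_)
    refine Finset.sum_comm.trans (Finset.sum_congr rfl fun x₁ _ => ?_)
    refine Finset.sum_comm.trans (Finset.sum_congr rfl fun x₂ _ => ?_)
    exact Finset.sum_comm
  rw [h2]
  simp_rw [step]
  rw [Finset.sum_comm]
  refine Finset.sum_congr rfl fun x₁ _ => ?_
  rw [Finset.sum_mul]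
  have h3 : ∀ x, ∑ x₂, ∑ x₃, star (W x₃ l) * ρ (x₂, x₃) (x, x₁) * W x₁ l * (if x = x₂ then 1 else 0)
      = ∑ x₃, star (W x₃ l) * ρ (x, x₃) (x, x₁) * W x₁ l := by
    intro x
    rw [Finset.sum_comm]
    refine Finset.sum_congr rfl fun x₃ _ => ?_
    simp
  simp_rw [h3]
  rw [Finset.sum_comm]
  refine Finset.sum_congr rfl fun x₃ _ => ?_
  rw [Finset.mul_sum, Finset.sum_mul]

lemma marg_R (ρ : Matrix (n × m) (n × m) ℂ) (V : Matrix n n ℂ) (W : Matrix m m ℂ)
    (hW1 : star W * W = 1) (hV2 : V * star V = 1) (β : m → ℝ)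
    (hs : ptrR ρ = W * Matrix.diagonal (fun k => (β k : ℂ)) * star W) (l : m) :
    ∑ k, (star (V ⊗ₖ W) * ρ * (V ⊗ₖ W)) (k, l) (k, l) = (β l : ℂ) := by
  rw [show (∑ k, (star (V ⊗ₖ W) * ρ * (V ⊗ₖ W)) (k, l) (k, l)) = _ from sum_diag_conj_R ρ V W hV2 l,
    hs]
  have : star W * (W * Matrix.diagonal (fun k => (β k : ℂ)) * star W) * W
      = Matrix.diagonal (fun k => (β k : ℂ)) := by
    calc star W * (W * Matrix.diagonal (fun k => (β k : ℂ)) * star W) * W
        = (star W * W) * Matrix.diagonal (fun k => (β k : ℂ)) * (star W * W) := by noncomm_ring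
      _ = _ := by rw [hW1, one_mul, mul_one]
  rw [this]
  simp

/-- The matrix identity giving the diagonal of `star K ρ K` from the spectrum of `ρ`. -/
lemma diag_conj (ρ : Matrix (n × m) (n × m) ℂ) (U K : Matrix (n × m) (n × m) ℂ)
    (lam : n × m → ℝ) (hs : ρ = U * Matrix.diagonal (fun k => (lam k : ℂ)) * star U) (j : n × m) :
    (star K * ρ * K) j j = ((∑ i, lam i * Complex.normSq ((star U * K) i j) : ℝ) : ℂ) := by
  have h : star K * ρ * K = star (star U * K) * Matrix.diagonal (fun k => (lam k : ℂ)) * (star U * K) := by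
    rw [hs, star_mul, star_star]
    noncomm_ring
  rw [h]
  simp only [Matrix.mul_apply, Matrix.diagonal_apply, Matrix.star_apply, mul_ite, mul_zero,
    Finset.sum_ite_eq', Finset.mem_univ, if_true]
  push_cast
  refine Finset.sum_congr rfl fun i _ => ?_
  rw [Complex.normSq_eq_conj_mul_self]
  simp only [RCLike.star_def]
  ring

lemma unitary_row (Q : Matrix (n × m) (n × m) ℂ) (h : Q * star Q = 1) (i : n × m) :
    ∑ j, Complex.normSq (Q i j) = 1 := by
  have h1 := congrFun (congrFun h i) i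
  simp only [Matrix.mul_apply, Matrix.star_apply, Matrix.one_apply_eq] at h1
  have h2 : ∀ j, Q i j * star (Q i j) = ((Complex.normSq (Q i j) : ℝ) : ℂ) := by
    intro j
    rw [Complex.normSq_eq_conj_mul_self]
    simp only [RCLike.star_def]
    ring
  simp_rw [h2] at h1
  exact_mod_cast h1

lemma unitary_col (Q : Matrix (n × m) (n × m) ℂ) (h : star Q * Q = 1) (j : n × m) :
    ∑ i, Complex.normSq (Q i j) = 1 := by
  have h1 := congrFun (congrFun h j) j
  simp only [Matrix.mul_apply, Matrix.star_apply, Matrix.one_apply_eq] at h1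
  have h2 : ∀ i, star (Q i j) * Q i j = ((Complex.normSq (Q i j) : ℝ) : ℂ) := by
    intro i
    rw [Complex.normSq_eq_conj_mul_self]
    simp only [RCLike.star_def]
  simp_rw [h2] at h1
  exact_mod_cast h1

/-- Subadditivity in terms of explicit spectral decompositions. -/
lemma subadd_core (ρ : Matrix (n × m) (n × m) ℂ) (U : Matrix (n × m) (n × m) ℂ)
    (V : Matrix n n ℂ) (W : Matrix m m ℂ) (lam : n × m → ℝ) (α : n → ℝ) (β : m → ℝ)
    (hU1 : star U * U = 1) (hU2 : U * star U = 1) (hV1 : star V * V = 1) (hV2 : V * star V = 1)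
    (hW1 : star W * W = 1) (hW2 : W * star W = 1)
    (hs : ρ = U * Matrix.diagonal (fun k => (lam k : ℂ)) * star U)
    (hsL : ptrL ρ = V * Matrix.diagonal (fun k => (α k : ℂ)) * star V)
    (hsR : ptrR ρ = W * Matrix.diagonal (fun k => (β k : ℂ)) * star W)
    (hlam : ∀ i, 0 ≤ lam i) (hα : ∀ i, 0 ≤ α i) (hβ : ∀ i, 0 ≤ β i)
    (hsum : ∑ i, lam i = (∑ k, α k) * ∑ l, β l) :
    ∑ i, Real.negMulLog (lam i) ≤ ∑ k, Real.negMulLog (α k) + ∑ l, Real.negMulLog (β l) := by
  have hK1 : star (V ⊗ₖ W) * (V ⊗ₖ W) = 1 := by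
    rw [star_kron]
    exact kron_one _ _ _ _ hV1 hW1
  have hK2 : (V ⊗ₖ W) * star (V ⊗ₖ W) = 1 := by
    rw [star_kron]
    exact kron_one _ _ _ _ hV2 hW2
  have hQ1 : star (star U * (V ⊗ₖ W)) * (star U * (V ⊗ₖ W)) = 1 := by
    rw [star_mul, star_star]
    calc star (V ⊗ₖ W) * U * (star U * (V ⊗ₖ W))
        = star (V ⊗ₖ W) * (U * star U) * (V ⊗ₖ W) := by noncomm_ring
      _ = 1 := by rw [hU2, mul_one, hK1]
  have hQ2 : (star U * (V ⊗ₖ W)) * star (star U * (V ⊗ₖ W)) = 1 := by
    rw [star_mul, star_star]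
    calc star U * (V ⊗ₖ W) * (star (V ⊗ₖ W) * U)
        = star U * ((V ⊗ₖ W) * star (V ⊗ₖ W)) * U := by noncomm_ring
      _ = 1 := by rw [hK2, mul_one, hU1]
  refine klein_core (fun i j => Complex.normSq ((star U * (V ⊗ₖ W)) i j)) lam α β
    (fun i j => Complex.normSq_nonneg _) hlam hα hβ (unitary_row _ hQ2) (unitary_col _ hQ1) hsum
    ?_ ?_
  · intro k
    have h := marg_L ρ V W hV1 hW2 α hsL k
    simp_rw [diag_conj ρ U (V ⊗ₖ W) lam hs] at h
    exact_mod_cast h
  · intro l
    have h := marg_R ρ V W hW1 hV2 β hsR l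
    simp_rw [diag_conj ρ U (V ⊗ₖ W) lam hs] at h
    exact_mod_cast h

/-- Subadditivity of the von Neumann entropy. -/
theorem vnEntropy_subadd (hρ : ρ.PosSemidef) (htr : ρ.trace = 1) (hL : (ptrL ρ).PosSemidef)
    (hR : (ptrR ρ).PosSemidef) :
    vnEntropy ρ ≤ vnEntropy (ptrL ρ) + vnEntropy (ptrR ρ) := by
  classical
  rw [vnEntropy_eq hρ.1, vnEntropy_eq hL.1, vnEntropy_eq hR.1]
  have spec : ∀ {k : Type} [Fintype k] [DecidableEq k] {A : Matrix k k ℂ} (h : A.IsHermitian),
      A = (h.eigenvectorUnitary : Matrix k k ℂ) *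
        Matrix.diagonal (fun i => (h.eigenvalues i : ℂ)) * star (h.eigenvectorUnitary : Matrix k k ℂ) := by
    intro k _ _ A h
    have := h.spectral_theorem
    rw [Unitary.conjStarAlgAut_apply] at this
    exact this
  have ssum : ∀ {k : Type} [Fintype k] [DecidableEq k] {A : Matrix k k ℂ} (h : A.IsHermitian),
      A.trace = 1 → ∑ i, h.eigenvalues i = 1 := by
    intro k _ _ A h ht
    have := h.trace_eq_sum_eigenvalues
    rw [ht] at this
    exact Complex.ofReal_injective (by simpa using this.symm)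
  refine subadd_core ρ _ _ _ _ _ _ (Matrix.UnitaryGroup.star_mul_self _)
    (Matrix.mem_unitaryGroup_iff.mp (hρ.1.eigenvectorUnitary).2)
    (Matrix.UnitaryGroup.star_mul_self _)
    (Matrix.mem_unitaryGroup_iff.mp (hL.1.eigenvectorUnitary).2)
    (Matrix.UnitaryGroup.star_mul_self _)
    (Matrix.mem_unitaryGroup_iff.mp (hR.1.eigenvectorUnitary).2)
    (spec hρ.1) (spec hL.1) (spec hR.1) hρ.eigenvalues_nonneg hL.eigenvalues_nonneg
    hR.eigenvalues_nonneg ?_
  rw [ssum hρ.1 htr, ssum hL.1 (by rw [ptrL_trace, htr]), ssum hR.1 (by rw [ptrR_trace, htr]),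
    one_mul]

end Klein

section Deficit

/-- The Hellinger type bound for a single eigenvalue. -/
lemma deficit_pt {D lam : ℝ} (hD : 1 ≤ D) (h0 : 0 ≤ lam) (h1 : lam ≤ 1) :
    (lam - 1 / D) ^ 2 / 4 ≤ lam * (Real.log D + Real.log lam) - lam + 1 / D := by
  have hD0 : 0 < D := by linarith
  rcases h0.eq_or_lt with rfl | hl
  · simp only [zero_mul, sub_zero, zero_add]
    have h2 : 1 / D ≤ 1 := by
      rw [div_le_one hD0]
      exact hD
    have h3 : 0 ≤ 1 / D := by positivity
    have : (0 - 1 / D) ^ 2 = (1 / D) * (1 / D) := by ring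
    rw [this]
    nlinarith
  set t : ℝ := D * lam with ht
  have ht0 : 0 < t := mul_pos hD0 hl
  have htD : t ≤ D := by
    rw [ht]
    nlinarith
  set u : ℝ := Real.sqrt t with hu
  have hu0 : 0 < u := Real.sqrt_pos.mpr ht0
  have hu2 : u ^ 2 = t := Real.sq_sqrt ht0.le
  -- t log t - t + 1 ≥ (u - 1)²
  have h3 : Real.log t = 2 * Real.log u := by
    rw [← hu2, Real.log_pow]
    norm_num
  have h4 := Real.one_sub_inv_le_log_of_pos hu0
  have h5 : t * (2 * (1 - u⁻¹)) ≤ t * Real.log t := by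
    rw [h3]
    exact mul_le_mul_of_nonneg_left (by linarith) ht0.le
  have h6 : t * (2 * (1 - u⁻¹)) = 2 * t - 2 * u := by
    rw [← hu2]
    field_simp
  have h7 : (u - 1) ^ 2 ≤ t * Real.log t - t + 1 := by
    nlinarith
  -- (u - 1)² ≥ (t - 1)² / (4 D)
  have hsq : u ≤ Real.sqrt D := Real.sqrt_le_sqrt htD
  have hD1 : 1 ≤ Real.sqrt D := Real.one_le_sqrt.mpr hD
  have hsD : Real.sqrt D ^ 2 = D := Real.sq_sqrt hD0.le
  have h8 : (u + 1) ^ 2 ≤ 4 * D := by
    have : u + 1 ≤ 2 * Real.sqrt D := by linarith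
    have h9 : (u + 1) ^ 2 ≤ (2 * Real.sqrt D) ^ 2 :=
      pow_le_pow_left₀ (by positivity) this 2
    calc (u + 1) ^ 2 ≤ (2 * Real.sqrt D) ^ 2 := h9
      _ = 4 * D := by rw [mul_pow, hsD]; ring
  have h10 : (t - 1) ^ 2 ≤ 4 * D * (u - 1) ^ 2 := by
    have : (t - 1) ^ 2 = (u + 1) ^ 2 * (u - 1) ^ 2 := by
      rw [← hu2]
      ring
    rw [this]
    exact mul_le_mul_of_nonneg_right h8 (sq_nonneg _)
  have h11 : (t - 1) ^ 2 ≤ 4 * D * (t * Real.log t - t + 1) :=
    h10.trans (mul_le_mul_of_nonneg_left h7 (by positivity))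
  have h12 : Real.log t = Real.log D + Real.log lam := Real.log_mul hD0.ne' hl.ne'
  rw [h12] at h11
  have h13 : (lam - 1 / D) ^ 2 = (t - 1) ^ 2 / D ^ 2 := by
    rw [ht]
    field_simp
  rw [h13, div_div, div_le_iff₀ (by positivity)]
  have h14 : (lam * (Real.log D + Real.log lam) - lam + 1 / D) * (D ^ 2 * 4)
      = 4 * D * (t * (Real.log D + Real.log lam) - t + 1) := by
    rw [ht]
    field_simp
  rw [h14]
  exact h11

/-- The entropy deficit of a density matrix in terms of its Hilbert-Schmidt distance to the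
maximally mixed state. -/
theorem vnEntropy_deficit [Nonempty n] {ρ : Matrix n n ℂ} (hρ : ρ.PosSemidef) (htr : ρ.trace = 1) :
    vnEntropy ρ + (∑ a, ∑ b, Complex.normSq (ρ a b - (if a = b then ((Fintype.card n : ℂ))⁻¹ else 0))) / 4
      ≤ Real.log (Fintype.card n) := by
  classical
  set D : ℝ := (Fintype.card n : ℝ) with hD
  have hD1 : 1 ≤ D := by
    rw [hD]
    exact_mod_cast Fintype.card_pos
  have hD0 : 0 < D := by linarith
  have hH := hρ.1
  set lam := hH.eigenvalues with hlam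
  have h0 : ∀ i, 0 ≤ lam i := hρ.eigenvalues_nonneg
  have hsum : ∑ i, lam i = 1 := by
    have := hH.trace_eq_sum_eigenvalues
    rw [htr] at this
    exact Complex.ofReal_injective (by simpa [hlam] using this.symm)
  have h1 : ∀ i, lam i ≤ 1 := by
    intro i
    rw [← hsum]
    exact Finset.single_le_sum (f := lam) (fun j _ => h0 j) (mem_univ i)
  -- Hilbert-Schmidt norm in terms of eigenvalues
  set U : Matrix n n ℂ := (hH.eigenvectorUnitary : Matrix n n ℂ) with hU
  have hU1 : star U * U = 1 := Matrix.UnitaryGroup.star_mul_self _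
  have hU2 : U * star U = 1 := Matrix.mem_unitaryGroup_iff.mp hH.eigenvectorUnitary.2
  have hs : ρ = U * Matrix.diagonal (fun i => (lam i : ℂ)) * star U := by
    have := hH.spectral_theorem
    rw [Unitary.conjStarAlgAut_apply] at this
    exact this
  set T : Matrix n n ℂ := Matrix.of fun a b => ρ a b - (if a = b then ((D : ℂ))⁻¹ else 0) with hT
  have hTs : T = U * Matrix.diagonal (fun i => ((lam i - 1 / D : ℝ) : ℂ)) * star U := by
    have h2 : Matrix.diagonal (fun i => ((lam i - 1 / D : ℝ) : ℂ))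
        = Matrix.diagonal (fun i => (lam i : ℂ)) - ((D : ℂ))⁻¹ • (1 : Matrix n n ℂ) := by
      ext a b
      by_cases hab : a = b
      · subst hab
        simp [Matrix.diagonal_apply, div_eq_mul_inv]
      · simp [Matrix.diagonal_apply, hab, Matrix.one_apply]
    rw [h2, Matrix.mul_sub, Matrix.sub_mul, ← hs, Matrix.mul_smul, Matrix.smul_mul, mul_one, hU2]
    ext a b
    simp [hT, Matrix.one_apply, Matrix.smul_apply]
  have hF : ∑ a, ∑ b, Complex.normSq (T a b) = ∑ i, (lam i - 1 / D) ^ 2 := by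
    have h3 : ((∑ a, ∑ b, Complex.normSq (T a b) : ℝ) : ℂ) = (T * star T).trace := by
      simp only [Matrix.trace, Matrix.diag, Matrix.mul_apply, Matrix.star_apply]
      push_cast
      refine Finset.sum_congr rfl fun a _ => Finset.sum_congr rfl fun b _ => ?_
      rw [Complex.normSq_eq_conj_mul_self]
      simp only [RCLike.star_def]
      ring
    have h4 : (T * star T).trace
        = (Matrix.diagonal (fun i => ((lam i - 1 / D : ℝ) : ℂ)) *
            star (Matrix.diagonal (fun i => ((lam i - 1 / D : ℝ) : ℂ)))).trace := by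
      rw [hTs, star_mul, star_mul, star_star]
      have : U * Matrix.diagonal (fun i => ((lam i - 1 / D : ℝ) : ℂ)) * star U *
            (U * (star (Matrix.diagonal (fun i => ((lam i - 1 / D : ℝ) : ℂ))) * star U))
          = U * (Matrix.diagonal (fun i => ((lam i - 1 / D : ℝ) : ℂ)) * (star U * U) *
            star (Matrix.diagonal (fun i => ((lam i - 1 / D : ℝ) : ℂ)))) * star U := by
        noncomm_ring
      rw [this, hU1, mul_one, Matrix.trace_mul_comm, ← mul_assoc, hU1, one_mul]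
    have h5 : ((∑ i, (lam i - 1 / D) ^ 2 : ℝ) : ℂ)
        = (Matrix.diagonal (fun i => ((lam i - 1 / D : ℝ) : ℂ)) *
            star (Matrix.diagonal (fun i => ((lam i - 1 / D : ℝ) : ℂ)))).trace := by
      simp only [Matrix.trace, Matrix.diag, Matrix.mul_apply, Matrix.star_apply,
        Matrix.diagonal_apply]
      simp
      refine Finset.sum_congr rfl fun i _ => ?_
      ring
    exact Complex.ofReal_injective (by rw [h3, h4, ← h5])
  have hF' : ∑ a, ∑ b, Complex.normSq (ρ a b - (if a = b then ((Fintype.card n : ℂ))⁻¹ else 0))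
      = ∑ i, (lam i - 1 / D) ^ 2 := by
    rw [← hF]
    simp [hT, hD]
  rw [hF', vnEntropy_eq hH]
  -- pointwise sum
  have h6 : ∑ i, (lam i - 1 / D) ^ 2 / 4
      ≤ ∑ i, (lam i * (Real.log D + Real.log (lam i)) - lam i + 1 / D) :=
    Finset.sum_le_sum fun i _ => deficit_pt hD1 (h0 i) (h1 i)
  have h7 : ∑ i, (lam i * (Real.log D + Real.log (lam i)) - lam i + 1 / D)
      = Real.log D - ∑ i, Real.negMulLog (lam i) := by
    have e1 : ∀ i, lam i * (Real.log D + Real.log (lam i)) - lam i + 1 / D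
        = lam i * Real.log D - Real.negMulLog (lam i) - lam i + 1 / D := by
      intro i
      simp only [Real.negMulLog]
      ring
    simp_rw [e1]
    rw [Finset.sum_add_distrib, Finset.sum_sub_distrib, Finset.sum_sub_distrib, ← Finset.sum_mul,
      hsum, Finset.sum_const, Finset.card_univ, nsmul_eq_mul, ← hD]
    field_simp
    ring
  rw [h7, ← Finset.sum_div] at h6
  linarith

end Deficit

end Vale.Agent.Lib.P356
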