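import Vale.Agent.Lib.P356.Reduced

set_option linter.unusedSectionVars false
set_option linter.unusedVariables false

/-!
A spectral gap forces the reduced state of a block containing the whole neighbourhood of a site to
stay away from the maximally mixed state: otherwise a one-site shift of the ground state would be an
orthogonal low-energy state.
-/

namespace Vale.Agent.Lib.P356

open Finset Matrix
open scoped ComplexOrder

variable {S : Type} [Fintype S] [DecidableEq S] {q : ℕ}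

/-- Apply a permutation of the local basis at the site `y`. -/
def shiftCfg (π : Equiv.Perm (Fin q)) (y : S) : Equiv.Perm (S → Fin q) where
  toFun σ := Function.update σ y (π (σ y))
  invFun σ := Function.update σ y (π.symm (σ y))
  left_inv σ := by
    funext x
    by_cases h : x = y
    · subst h; simp
    · simp [h]
  right_inv σ := by
    funext x
    by_cases h : x = y
    · subst h; simp
    · simp [h]

lemma shiftCfg_apply (π : Equiv.Perm (Fin q)) (y : S) (σ : S → Fin q) (x : S) :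
    shiftCfg π y σ x = if x = y then π (σ y) else σ x := by
  show Function.update σ y (π (σ y)) x = _
  by_cases h : x = y
  · subst h; simp
  · simp [h]

/-- The same shift, on configurations of a block. -/
def shiftB (π : Equiv.Perm (Fin q)) (y : S) (B : Finset S) (a : ↥B → Fin q) : ↥B → Fin q :=
  fun z => if z.1 = y then π (a z) else a z

lemma shift_glue (π : Equiv.Perm (Fin q)) {y : S} {B : Finset S} (hy : y ∈ B) (a : ↥B → Fin q)
    (ω : {x // x ∉ B} → Fin q) : shiftCfg π y (glue B a ω) = glue B (shiftB π y B a) ω := by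
  funext x
  rw [shiftCfg_apply]
  by_cases hx : x = y
  · subst hx
    simp [glue, hy, shiftB]
  · by_cases hB : x ∈ B
    · simp [glue, hx, hB, shiftB]
    · simp [glue, hx, hB]

lemma reduced_shift (π : Equiv.Perm (Fin q)) {y : S} {B : Finset S} (hy : y ∈ B)
    (Ω : (S → Fin q) → ℂ) (a b : ↥B → Fin q) :
    reduced (fun σ => Ω (shiftCfg π y σ)) B a b = reduced Ω B (shiftB π y B a) (shiftB π y B b) := by
  simp only [reduced, Matrix.of_apply, shift_glue π hy]

lemma shiftB_ne {π : Equiv.Perm (Fin q)} (hπ : ∀ i, π i ≠ i) {y : S} {B : Finset S} (hy : y ∈ B)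
    (a : ↥B → Fin q) : shiftB π y B a ≠ a := by
  intro h
  have := congrFun h ⟨y, hy⟩
  simp only [shiftB, if_true] at this
  exact hπ _ this

lemma shiftB_inj (π : Equiv.Perm (Fin q)) (y : S) (B : Finset S) (a b : ↥B → Fin q) :
    shiftB π y B a = shiftB π y B b ↔ a = b := by
  constructor
  · intro h
    funext z
    have := congrFun h z
    simp only [shiftB] at this
    by_cases hz : z.1 = y
    · simp only [hz, if_true] at this
      exact π.injective this
    · simpa [hz] using this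
  · rintro rfl; rfl

/-- A term not touching `y` is invariant under the shift at `y`. -/
lemma liftOp_shift (π : Equiv.Perm (Fin q)) {y : S} {X : Finset S} (hy : y ∉ X)
    (k : Matrix (↥X → Fin q) (↥X → Fin q) ℂ) (σ τ : S → Fin q) :
    liftOp X k (shiftCfg π y σ) (shiftCfg π y τ) = liftOp X k σ τ := by
  have h1 : (fun x : ↥X => shiftCfg π y σ x.1) = fun x : ↥X => σ x.1 := by
    funext x
    rw [shiftCfg_apply, if_neg]
    intro h
    exact hy (h ▸ x.2)
  have h2 : (fun x : ↥X => shiftCfg π y τ x.1) = fun x : ↥X => τ x.1 := by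
    funext x
    rw [shiftCfg_apply, if_neg]
    intro h
    exact hy (h ▸ x.2)
  have h3 : (∀ x, x ∉ X → shiftCfg π y σ x = shiftCfg π y τ x) ↔ ∀ x, x ∉ X → σ x = τ x := by
    refine forall_congr' fun x => imp_congr_right fun _ => ?_
    rw [shiftCfg_apply, shiftCfg_apply]
    by_cases hx : x = y
    · subst hx
      simp
    · simp [hx]
  simp only [liftOp, Matrix.of_apply, h1, h2, h3]

/-- The quadratic form of a kernel. -/
noncomputable def qf (ψ : (S → Fin q) → ℂ) (M : Matrix (S → Fin q) (S → Fin q) ℂ) : ℂ :=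
  ∑ σ, ∑ τ, star (ψ σ) * M σ τ * ψ τ

lemma qf_eq_dot (ψ : (S → Fin q) → ℂ) (M : Matrix (S → Fin q) (S → Fin q) ℂ) :
    star ψ ⬝ᵥ (M *ᵥ ψ) = qf ψ M := by
  simp only [dotProduct, Matrix.mulVec, qf, Pi.star_apply, Finset.mul_sum]
  refine Finset.sum_congr rfl fun σ _ => Finset.sum_congr rfl fun τ _ => ?_
  ring

lemma qf_sum {ι : Type} (ψ : (S → Fin q) → ℂ) (F : Finset ι)
    (M : ι → Matrix (S → Fin q) (S → Fin q) ℂ) : qf ψ (∑ X ∈ F, M X) = ∑ X ∈ F, qf ψ (M X) := by
  simp only [qf, Matrix.sum_apply, Finset.mul_sum, Finset.sum_mul]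
  rw [Finset.sum_comm (s := F) (t := univ)]
  refine Finset.sum_congr rfl fun σ _ => ?_
  rw [Finset.sum_comm (s := F) (t := univ)]

lemma qf_shift_of_notMem (π : Equiv.Perm (Fin q)) {y : S} {X : Finset S} (hy : y ∉ X)
    (k : Matrix (↥X → Fin q) (↥X → Fin q) ℂ) (Ω : (S → Fin q) → ℂ) :
    qf (fun σ => Ω (shiftCfg π y σ)) (liftOp X k) = qf Ω (liftOp X k) := by
  unfold qf
  rw [← Equiv.sum_comp (shiftCfg π y) (fun σ => ∑ τ, star (Ω σ) * liftOp X k σ τ * Ω τ)]
  refine Finset.sum_congr rfl fun σ _ => ?_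
  rw [← Equiv.sum_comp (shiftCfg π y) (fun τ => star (Ω (shiftCfg π y σ)) * liftOp X k (shiftCfg π y σ) τ * Ω τ)]
  refine Finset.sum_congr rfl fun τ _ => ?_
  rw [liftOp_shift π hy]

/-- The deviation of the reduced state from the maximally mixed state. -/
noncomputable def devi (Ω : (S → Fin q) → ℂ) (B : Finset S) (a b : ↥B → Fin q) : ℂ :=
  reduced Ω B a b - if a = b then ((Fintype.card (↥B → Fin q) : ℂ))⁻¹ else 0

/-- Squared Hilbert-Schmidt size of the deviation. -/
noncomputable def deviSq (Ω : (S → Fin q) → ℂ) (B : Finset S) : ℝ :=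
  ∑ a, ∑ b, Complex.normSq (devi Ω B a b)

lemma deviSq_nonneg (Ω : (S → Fin q) → ℂ) (B : Finset S) : 0 ≤ deviSq Ω B :=
  Finset.sum_nonneg fun _ _ => Finset.sum_nonneg fun _ _ => Complex.normSq_nonneg _

lemma norm_devi_le (Ω : (S → Fin q) → ℂ) (B : Finset S) (a b : ↥B → Fin q) :
    ‖devi Ω B a b‖ ≤ Real.sqrt (deviSq Ω B) := by
  apply Real.le_sqrt_of_sq_le
  rw [← Complex.normSq_eq_norm_sq]
  calc Complex.normSq (devi Ω B a b) ≤ ∑ b, Complex.normSq (devi Ω B a b) :=
        Finset.single_le_sum (f := fun b => Complex.normSq (devi Ω B a b))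
          (fun _ _ => Complex.normSq_nonneg _) (Finset.mem_univ b)
    _ ≤ deviSq Ω B :=
        Finset.single_le_sum (f := fun a => ∑ b, Complex.normSq (devi Ω B a b))
          (fun _ _ => Finset.sum_nonneg fun _ _ => Complex.normSq_nonneg _) (Finset.mem_univ a)

lemma reduced_shift_sub (π : Equiv.Perm (Fin q)) {y : S} {B : Finset S} (hy : y ∈ B)
    (Ω : (S → Fin q) → ℂ) (a b : ↥B → Fin q) :
    reduced (fun σ => Ω (shiftCfg π y σ)) B a b - reduced Ω B a b
      = devi Ω B (shiftB π y B a) (shiftB π y B b) - devi Ω B a b := by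
  rw [reduced_shift π hy]
  simp only [devi, shiftB_inj]
  ring

/-- One term of the Hamiltonian touching `y`: its energy changes little when the state is nearly
maximally mixed on the block. -/
lemma qf_shift_of_mem (π : Equiv.Perm (Fin q)) {y : S} {X B : Finset S} (hy : y ∈ B) (hXB : X ⊆ B)
    (k : Matrix (↥X → Fin q) (↥X → Fin q) ℂ) {J : ℝ} (hJ : 0 ≤ J) (hk : ∀ a b, ‖k a b‖ ≤ J)
    (Ω : (S → Fin q) → ℂ) :
    ‖qf (fun σ => Ω (shiftCfg π y σ)) (liftOp X k) - qf Ω (liftOp X k)‖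
      ≤ (Fintype.card (↥B → Fin q) : ℝ) ^ 2 * (J * (2 * Real.sqrt (deviSq Ω B))) := by
  have hg : ∀ a b, ‖extendOp X B hXB k a b‖ ≤ J := by
    intro a b
    simp only [extendOp, Matrix.of_apply]
    split_ifs
    · exact hk _ _
    · simpa using hJ
  have e : qf (fun σ => Ω (shiftCfg π y σ)) (liftOp X k) - qf Ω (liftOp X k)
      = ∑ a, ∑ b, extendOp X B hXB k a b *
        (devi Ω B (shiftB π y B b) (shiftB π y B a) - devi Ω B b a) := by
    rw [← liftOp_extendOp X B hXB k]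
    unfold qf
    rw [qf_lift, qf_lift, ← Finset.sum_sub_distrib]
    refine Finset.sum_congr rfl fun a _ => ?_
    rw [← Finset.sum_sub_distrib]
    refine Finset.sum_congr rfl fun b _ => ?_
    rw [← mul_sub, reduced_shift_sub π hy]
  rw [e]
  have hb : ∀ a b, ‖extendOp X B hXB k a b *
      (devi Ω B (shiftB π y B b) (shiftB π y B a) - devi Ω B b a)‖
        ≤ J * (2 * Real.sqrt (deviSq Ω B)) := by
    intro a b
    rw [norm_mul]
    refine mul_le_mul (hg a b) ?_ (norm_nonneg _) hJ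
    calc _ ≤ ‖devi Ω B (shiftB π y B b) (shiftB π y B a)‖ + ‖devi Ω B b a‖ := norm_sub_le _ _
      _ ≤ Real.sqrt (deviSq Ω B) + Real.sqrt (deviSq Ω B) :=
          add_le_add (norm_devi_le _ _ _ _) (norm_devi_le _ _ _ _)
      _ = _ := by ring
  calc ‖∑ a, ∑ b, extendOp X B hXB k a b *
        (devi Ω B (shiftB π y B b) (shiftB π y B a) - devi Ω B b a)‖
      ≤ ∑ a : ↥B → Fin q, ∑ b : ↥B → Fin q, (J * (2 * Real.sqrt (deviSq Ω B))) := by
        refine (norm_sum_le _ _).trans (Finset.sum_le_sum fun a _ => ?_)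
        exact (norm_sum_le _ _).trans (Finset.sum_le_sum fun b _ => hb a b)
    _ = _ := by
        simp only [Finset.sum_const, Finset.card_univ, nsmul_eq_mul]
        ring

lemma overlap_eq (π : Equiv.Perm (Fin q)) (hπ : ∀ i, π i ≠ i) {y : S} {B : Finset S} (hy : y ∈ B)
    (Ω : (S → Fin q) → ℂ) :
    star Ω ⬝ᵥ (fun σ => Ω (shiftCfg π y σ)) = ∑ a, devi Ω B (shiftB π y B a) a := by
  simp only [dotProduct, Pi.star_apply]
  rw [sum_config B]
  refine Finset.sum_congr rfl fun a _ => ?_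
  simp only [devi, reduced, Matrix.of_apply, if_neg (shiftB_ne hπ hy a), sub_zero, shift_glue π hy]
  refine Finset.sum_congr rfl fun ω _ => ?_
  ring

/-- The main inequality on a block containing the neighbourhood of `y`. -/
theorem block_ineq (π : Equiv.Perm (Fin q)) (hπ : ∀ i, π i ≠ i) (F : Finset (Finset S))
    (k : ∀ X : Finset S, Matrix (↥X → Fin q) (↥X → Fin q) ℂ) {J Δ E₀ : ℝ} (hJ : 0 ≤ J) (hΔ : 0 ≤ Δ)
    (hk : ∀ X a b, ‖k X a b‖ ≤ J) (H : Matrix (S → Fin q) (S → Fin q) ℂ)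
    (hH : H = ∑ X ∈ F, liftOp X (k X)) (Ω : (S → Fin q) → ℂ)
    (hu : ∑ σ, Complex.normSq (Ω σ) = 1) (heig : H *ᵥ Ω = (E₀ : ℂ) • Ω)
    (hgap : ∀ ψ : (S → Fin q) → ℂ, Δ * (∑ σ, Complex.normSq (ψ σ) - Complex.normSq (star Ω ⬝ᵥ ψ))
      ≤ (star ψ ⬝ᵥ (H *ᵥ ψ)).re - E₀ * ∑ σ, Complex.normSq (ψ σ))
    (y : S) (B : Finset S) (hy : y ∈ B) (hcov : ∀ X ∈ F, y ∈ X → X ⊆ B) :
    Δ * (1 - (Fintype.card (↥B → Fin q) : ℝ) ^ 2 * deviSq Ω B)
      ≤ ((F.filter (y ∈ ·)).card : ℝ) *
        ((Fintype.card (↥B → Fin q) : ℝ) ^ 2 * (J * (2 * Real.sqrt (deviSq Ω B)))) := by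
  set D : ℝ := (Fintype.card (↥B → Fin q) : ℝ) with hD
  set x : ℝ := Real.sqrt (deviSq Ω B) with hx
  set Ψ : (S → Fin q) → ℂ := fun σ => Ω (shiftCfg π y σ) with hΨ
  have hxsq : x ^ 2 = deviSq Ω B := Real.sq_sqrt (deviSq_nonneg _ _)
  have hx0 : 0 ≤ x := Real.sqrt_nonneg _
  have hD0 : 0 ≤ D := by rw [hD]; positivity
  -- normalisation
  have hnorm : ∑ σ, Complex.normSq (Ψ σ) = 1 := by
    rw [← hu]
    exact Equiv.sum_comp (shiftCfg π y) (fun σ => Complex.normSq (Ω σ))
  -- the ground energy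
  have hE : qf Ω H = (E₀ : ℂ) := by
    rw [← qf_eq_dot, heig]
    have : star Ω ⬝ᵥ ((E₀ : ℂ) • Ω) = (E₀ : ℂ) * ((∑ σ, Complex.normSq (Ω σ) : ℝ) : ℂ) := by
      simp only [dotProduct, Pi.star_apply, Pi.smul_apply, smul_eq_mul]
      push_cast
      rw [Finset.mul_sum]
      refine Finset.sum_congr rfl fun σ _ => ?_
      rw [← Complex.mul_conj, Complex.star_def]
      ring
    rw [this, hu]
    simp
  -- the energy difference
  have hdiff : ‖qf Ψ H - qf Ω H‖ ≤ ((F.filter (y ∈ ·)).card : ℝ) * (D ^ 2 * (J * (2 * x))) := by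
    rw [hH, qf_sum, qf_sum, ← Finset.sum_sub_distrib]
    calc _ ≤ ∑ X ∈ F, ‖qf Ψ (liftOp X (k X)) - qf Ω (liftOp X (k X))‖ := norm_sum_le _ _
      _ ≤ ∑ X ∈ F, if y ∈ X then D ^ 2 * (J * (2 * x)) else 0 := by
          refine Finset.sum_le_sum fun X hX => ?_
          by_cases hyX : y ∈ X
          · rw [if_pos hyX]
            exact qf_shift_of_mem π hy (hcov X hX hyX) (k X) hJ (hk X) Ω
          · rw [if_neg hyX, qf_shift_of_notMem π hyX]
            simp
      _ = _ := by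
          rw [← Finset.sum_filter, Finset.sum_const, nsmul_eq_mul]
  -- the overlap
  have hover : Complex.normSq (star Ω ⬝ᵥ Ψ) ≤ D ^ 2 * x ^ 2 := by
    rw [Complex.normSq_eq_norm_sq, ← mul_pow]
    refine pow_le_pow_left₀ (norm_nonneg _) ?_ 2
    rw [hΨ, overlap_eq π hπ hy Ω (B := B)]
    calc _ ≤ ∑ a : ↥B → Fin q, x := (norm_sum_le _ _).trans
            (Finset.sum_le_sum fun a _ => norm_devi_le _ _ _ _)
      _ = D * x := by
          simp [hD]
  have hg := hgap Ψ
  rw [hnorm, qf_eq_dot, mul_one] at hg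
  have hre : (qf Ψ H).re - E₀ ≤ ‖qf Ψ H - qf Ω H‖ := by
    have : (qf Ψ H).re - E₀ = (qf Ψ H - qf Ω H).re := by
      rw [hE]; simp
    rw [this]
    exact Complex.re_le_norm _
  have h1 : Δ * (1 - D ^ 2 * deviSq Ω B) ≤ Δ * (1 - Complex.normSq (star Ω ⬝ᵥ Ψ)) := by
    refine mul_le_mul_of_nonneg_left ?_ hΔ
    rw [← hxsq]
    linarith
  linarith

end Vale.Agent.Lib.P356
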