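import Vale.Agent.Lib.P356.Gap
import Vale.Agent.Lib.P356.Comb

set_option linter.unusedSectionVars false
set_option linter.unusedVariables false

/-!
The strict volume law: the ground state of every gapped admissible Hamiltonian on the square lattice
has entanglement entropy at most `(1 - c) min(|A|, |Aᶜ|) log q + C |∂A|` with `c > 0`, `C` depending
only on `q, R, J, Δ`.
-/

namespace Vale.Agent.Lib.P356

open Finset Matrix
open scoped ComplexOrder

/-- `‖k‖ ≤ J` in operator norm, written out: `‖k v‖² ≤ J² ‖v‖²` for all vectors `v`. -/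
def OpNormLe {n : Type} [Fintype n] (k : Matrix n n ℂ) (J : ℝ) : Prop :=
  ∀ v : n → ℂ, ∑ a, Complex.normSq ((k *ᵥ v) a) ≤ J ^ 2 * ∑ a, Complex.normSq (v a)

/-- The nonempty subsets of `Λ_L` of `ℓ¹` diameter at most `R`. -/
noncomputable def terms (R L : ℕ) : Finset (Finset (Site L)) :=
  univ.filter fun X => X.Nonempty ∧ ∀ x ∈ X, ∀ x' ∈ X, dist1 x x' ≤ R

/-- Admissible Hamiltonians: one Hermitian term of operator norm at most `J` for each allowed `X`,
acting on the factors in `X` and as the identity elsewhere. -/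
def Admissible {L q : ℕ} (R : ℕ) (J : ℝ) (H : Matrix (Site L → Fin q) (Site L → Fin q) ℂ) : Prop :=
  ∃ k : ∀ X : Finset (Site L), Matrix (↥X → Fin q) (↥X → Fin q) ℂ,
    (∀ X, (k X).IsHermitian) ∧ (∀ X, OpNormLe (k X) J) ∧ H = ∑ X ∈ terms R L, liftOp X (k X)

/-- `Ω` is a unit vector with `H Ω = E₀ Ω` and `H - E₀ I ≥ Δ (I - |Ω⟩⟨Ω|)`. -/
structure IsGappedGround {S : Type} [Fintype S] [DecidableEq S] {q : ℕ}
    (H : Matrix (S → Fin q) (S → Fin q) ℂ) (Δ E₀ : ℝ) (Ω : (S → Fin q) → ℂ) : Prop where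
  unit : ∑ σ, Complex.normSq (Ω σ) = 1
  eigen : H *ᵥ Ω = (E₀ : ℂ) • Ω
  gap : ∀ ψ : (S → Fin q) → ℂ, Δ * (∑ σ, Complex.normSq (ψ σ) - Complex.normSq (star Ω ⬝ᵥ ψ))
    ≤ (star ψ ⬝ᵥ (H *ᵥ ψ)).re - E₀ * ∑ σ, Complex.normSq (ψ σ)

lemma OpNormLe.entry {n : Type} [Fintype n] [DecidableEq n] {k : Matrix n n ℂ} {J : ℝ}
    (h : OpNormLe k J) (hJ : 0 ≤ J) (a b : n) : ‖k a b‖ ≤ J := by
  have h1 := h (Pi.single b 1)
  have h2 : ∑ c, Complex.normSq ((Pi.single b 1 : n → ℂ) c) = 1 := by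
    rw [Finset.sum_eq_single b]
    · simp
    · intro c _ hc
      simp [Pi.single_eq_of_ne hc]
    · simp
  rw [h2, mul_one] at h1
  have h3 : Complex.normSq ((k *ᵥ (Pi.single b 1 : n → ℂ)) a) ≤ J ^ 2 :=
    le_trans (Finset.single_le_sum (f := fun a => Complex.normSq ((k *ᵥ (Pi.single b 1 : n → ℂ)) a))
      (fun _ _ => Complex.normSq_nonneg _) (Finset.mem_univ a)) h1
  rw [Matrix.mulVec_single_one, Complex.normSq_eq_norm_sq] at h3
  exact (sq_le_sq₀ (norm_nonneg _) hJ).1 h3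

lemma numeric_lower {Δ M Q x : ℝ} (hΔ : 0 < Δ) (hM : 0 < M) (hQ : 1 ≤ Q) (hx : 0 ≤ x)
    (h : Δ * (1 - Q ^ 2 * x ^ 2) ≤ M * x) : min (1 / (2 * Q)) (Δ / (2 * M)) ≤ x := by
  by_contra hlt
  push Not at hlt
  have h1 := lt_of_lt_of_le hlt (min_le_left _ _)
  have h2 := lt_of_lt_of_le hlt (min_le_right _ _)
  have hQ0 : 0 < Q := by linarith
  have h3 : Q * x < 1 / 2 := by
    rw [lt_div_iff₀ (by positivity)] at h1
    linarith
  have h4 : Q ^ 2 * x ^ 2 < 1 / 4 := by
    have : 0 ≤ Q * x := by positivity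
    have e : Q ^ 2 * x ^ 2 = (Q * x) ^ 2 := by ring
    rw [e]
    nlinarith
  have h5 : M * x < Δ / 2 := by
    rw [lt_div_iff₀ (by positivity)] at h2
    linarith
  nlinarith

lemma exists_fixedPointFree {q : ℕ} (hq : 2 ≤ q) : ∃ π : Equiv.Perm (Fin q), ∀ i, π i ≠ i := by
  obtain ⟨n, rfl⟩ : ∃ n, q = n + 2 := ⟨q - 2, by omega⟩
  refine ⟨Equiv.addRight 1, fun i h => ?_⟩
  have h1 : i + 1 = i := h
  have h2 : (1 : Fin (n + 2)) = 0 := by
    simp at h1
  exact absurd h2 (by simp)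

/-- The entropy deficit of a ball. -/
noncomputable def kappa (q R : ℕ) (J Δ : ℝ) : ℝ :=
  (min (1 / (2 * (q : ℝ) ^ ((2 * R + 1) ^ 2)))
    (Δ / (2 * ((2 : ℝ) ^ ((2 * R + 1) ^ 2) * (((q : ℝ) ^ ((2 * R + 1) ^ 2)) ^ 2 * (J * 2)))))) ^ 2 / 4

lemma card_config {S : Type} [Fintype S] [DecidableEq S] {q : ℕ} (B : Finset S) :
    Fintype.card (↥B → Fin q) = q ^ B.card := by
  simp

lemma log_card_config {S : Type} [Fintype S] [DecidableEq S] {q : ℕ} (B : Finset S) :
    Real.log (Fintype.card (↥B → Fin q)) = (B.card : ℝ) * Real.log q := by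
  rw [card_config]
  push_cast
  rw [Real.log_pow]

/-- The trivial bound. -/
lemma reduced_trivial {S : Type} [Fintype S] [DecidableEq S] {q : ℕ} (hq : 2 ≤ q)
    (Ω : (S → Fin q) → ℂ) (hu : ∑ σ, Complex.normSq (Ω σ) = 1) (A : Finset S) :
    vnEntropy (reduced Ω A) ≤ (A.card : ℝ) * Real.log q := by
  have : Nonempty (Fin q) := ⟨⟨0, by omega⟩⟩
  have h := vnEntropy_deficit (reduced_posSemidef Ω A) (by rw [reduced_trace, hu]; simp)
  rw [log_card_config] at h
  have h0 : 0 ≤ (∑ a, ∑ b, Complex.normSq (reduced Ω A a b -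
      (if a = b then ((Fintype.card (↥A → Fin q) : ℂ))⁻¹ else 0))) / 4 := by
    apply div_nonneg _ (by norm_num)
    exact Finset.sum_nonneg fun _ _ => Finset.sum_nonneg fun _ _ => Complex.normSq_nonneg _
  linarith

lemma ball_numeric' {Δ J D Q N P x : ℝ} (hΔ : 0 < Δ) (hJ : 0 < J) (hD1 : 1 ≤ D) (hDQ : D ≤ Q)
    (hN0 : 0 ≤ N) (hNP : N ≤ P) (hP : 0 < P) (hx0 : 0 ≤ x)
    (hineq : Δ * (1 - D ^ 2 * x ^ 2) ≤ N * (D ^ 2 * (J * (2 * x)))) :
    min (1 / (2 * Q)) (Δ / (2 * (P * (Q ^ 2 * (J * 2))))) ≤ x := by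
  have hQ1 : 1 ≤ Q := hD1.trans hDQ
  have hQ0 : 0 < Q := by linarith
  have hDsq : D ^ 2 ≤ Q ^ 2 := pow_le_pow_left₀ (by linarith) hDQ 2
  apply numeric_lower hΔ (by positivity) hQ1 hx0
  have a1 : Δ * (1 - Q ^ 2 * x ^ 2) ≤ Δ * (1 - D ^ 2 * x ^ 2) := by
    apply mul_le_mul_of_nonneg_left _ hΔ.le
    have : D ^ 2 * x ^ 2 ≤ Q ^ 2 * x ^ 2 := mul_le_mul_of_nonneg_right hDsq (by positivity)
    linarith
  have a2 : N * (D ^ 2 * (J * (2 * x))) ≤ P * (Q ^ 2 * (J * 2)) * x := by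
    have e : P * (Q ^ 2 * (J * 2)) * x = P * (Q ^ 2 * (J * (2 * x))) := by ring
    rw [e]
    refine mul_le_mul hNP ?_ (by positivity) hP.le
    exact mul_le_mul_of_nonneg_right hDsq (by positivity)
  linarith

lemma card_filter_mem_le {S : Type} [Fintype S] [DecidableEq S] (F : Finset (Finset S)) (y : S)
    (B : Finset S) (hcov : ∀ X ∈ F, y ∈ X → X ⊆ B) {b : ℕ} (hb : B.card ≤ b) :
    ((F.filter (y ∈ ·)).card : ℝ) ≤ (2 : ℝ) ^ b := by
  have h1 : (F.filter (y ∈ ·)) ⊆ B.powerset := by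
    intro X hX
    have := Finset.mem_filter.1 hX
    exact Finset.mem_powerset.2 (hcov X this.1 this.2)
  have h2 := Finset.card_le_card h1
  rw [Finset.card_powerset] at h2
  calc ((F.filter (y ∈ ·)).card : ℝ) ≤ ((2 ^ B.card : ℕ) : ℝ) := by exact_mod_cast h2
    _ = (2 : ℝ) ^ B.card := by push_cast; rfl
    _ ≤ (2 : ℝ) ^ b := pow_le_pow_right₀ (by norm_num) hb

/-- The deficit of each ball for gapped ground states. -/
theorem ball_entropy {q : ℕ} (hq : 2 ≤ q) (R : ℕ) {J Δ : ℝ} (hJ : 0 < J) (hΔ : 0 < Δ) {L : ℕ}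
    {H : Matrix (Site L → Fin q) (Site L → Fin q) ℂ} {E₀ : ℝ} {Ω : (Site L → Fin q) → ℂ}
    (hH : Admissible R J H) (hg : IsGappedGround H Δ E₀ Ω) (y : Site L) :
    vnEntropy (reduced Ω (ball R y)) ≤ ((ball R y).card : ℝ) * Real.log q - kappa q R J Δ := by
  obtain ⟨k, -, hk, hHk⟩ := hH
  obtain ⟨π, hπ⟩ := exists_fixedPointFree hq
  have : Nonempty (Fin q) := ⟨⟨0, by omega⟩⟩
  have hcov : ∀ X ∈ terms R L, y ∈ X → X ⊆ ball R y := by
    intro X hX hy x hx
    exact mem_ball.2 ((Finset.mem_filter.1 hX).2.2 y hy x hx)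
  have hineq := block_ineq π hπ (terms R L) k hJ.le hΔ.le (fun X a c => (hk X).entry hJ.le a c) H hHk Ω
    hg.unit hg.eigen hg.gap y (ball R y) (self_mem_ball R y) hcov
  have hxsq : Real.sqrt (deviSq Ω (ball R y)) ^ 2 = deviSq Ω (ball R y) :=
    Real.sq_sqrt (deviSq_nonneg _ _)
  have hx0 : 0 ≤ Real.sqrt (deviSq Ω (ball R y)) := Real.sqrt_nonneg _
  have hq1 : (1 : ℝ) ≤ q := by
    exact_mod_cast (by omega : 1 ≤ q)
  have hcardB : (ball R y).card ≤ (2 * R + 1) ^ 2 := ball_card_le R y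
  have hD1 : (1 : ℝ) ≤ (Fintype.card (↥(ball R y) → Fin q) : ℝ) := by
    rw [card_config]
    push_cast
    exact one_le_pow₀ hq1
  have hDQ : (Fintype.card (↥(ball R y) → Fin q) : ℝ) ≤ (q : ℝ) ^ ((2 * R + 1) ^ 2) := by
    rw [card_config]
    push_cast
    exact pow_le_pow_right₀ hq1 hcardB
  have hN := card_filter_mem_le (terms R L) y (ball R y) hcov hcardB
  have hineq' := hineq
  rw [← hxsq] at hineq'
  have h3 := ball_numeric' hΔ hJ hD1 hDQ (Nat.cast_nonneg _) hN (by positivity) hx0 (by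
    rw [hxsq] at *
    exact hineq)
  have hk4 : kappa q R J Δ ≤ deviSq Ω (ball R y) / 4 := by
    unfold kappa
    rw [← hxsq]
    have hd0 : 0 ≤ min (1 / (2 * (q : ℝ) ^ ((2 * R + 1) ^ 2)))
        (Δ / (2 * ((2 : ℝ) ^ ((2 * R + 1) ^ 2) * (((q : ℝ) ^ ((2 * R + 1) ^ 2)) ^ 2 * (J * 2))))) := by
      apply le_min <;> positivity
    have := pow_le_pow_left₀ hd0 h3 2
    linarith
  have hdef := vnEntropy_deficit (reduced_posSemidef Ω (ball R y))
    (by rw [reduced_trace, hg.unit]; simp)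
  rw [log_card_config] at hdef
  have e : (∑ a, ∑ c, Complex.normSq (reduced Ω (ball R y) a c -
      (if a = c then ((Fintype.card (↥(ball R y) → Fin q) : ℂ))⁻¹ else 0)))
        = deviSq Ω (ball R y) := rfl
  rw [e] at hdef
  linarith

/-- Induction over a family of disjoint blocks. -/
theorem disjoint_blocks {S : Type} [Fintype S] [DecidableEq S] {q : ℕ} (hq : 2 ≤ q)
    (Ω : (S → Fin q) → ℂ) (hu : ∑ σ, Complex.normSq (Ω σ) = 1) (B : S → Finset S) {κ : ℝ}
    (hB : ∀ y, vnEntropy (reduced Ω (B y)) ≤ ((B y).card : ℝ) * Real.log q - κ)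
    (Y : Finset S) :
    ∀ A : Finset S, (∀ y ∈ Y, B y ⊆ A) → (∀ y ∈ Y, ∀ y' ∈ Y, y ≠ y' → Disjoint (B y) (B y')) →
      vnEntropy (reduced Ω A) ≤ (A.card : ℝ) * Real.log q - (Y.card : ℝ) * κ := by
  induction Y using Finset.induction_on with
  | empty =>
    intro A _ _
    simpa using reduced_trivial hq Ω hu A
  | insert y Y hy ih =>
    intro A hsub hdis
    have hyA : B y ⊆ A := hsub y (Finset.mem_insert_self _ _)
    have hd : Disjoint (A \ B y) (B y) := Finset.sdiff_disjoint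
    have h := reduced_subadd Ω hu (A \ B y) (B y) hd
    rw [Finset.sdiff_union_of_subset hyA] at h
    have h1 := ih (A \ B y)
      (by
        intro z hz
        have hzy : z ≠ y := fun e => hy (e ▸ hz)
        have hd2 := hdis z (Finset.mem_insert_of_mem hz) y (Finset.mem_insert_self _ _) hzy
        intro w hw
        refine Finset.mem_sdiff.2 ⟨hsub z (Finset.mem_insert_of_mem hz) hw, ?_⟩
        exact Finset.disjoint_left.1 hd2 hw)
      (fun z hz z' hz' hne =>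
        hdis z (Finset.mem_insert_of_mem hz) z' (Finset.mem_insert_of_mem hz') hne)
    have hcard : ((A \ B y).card : ℝ) = (A.card : ℝ) - ((B y).card : ℝ) := by
      rw [Finset.card_sdiff_of_subset hyA, Nat.cast_sub (Finset.card_le_card hyA)]
    rw [hcard] at h1
    rw [Finset.card_insert_of_notMem hy]
    have h2 := hB y
    push_cast
    nlinarith

lemma kappa_pos {q R : ℕ} (hq : 2 ≤ q) {J Δ : ℝ} (hJ : 0 < J) (hΔ : 0 < Δ) : 0 < kappa q R J Δ := by
  have hq0 : (0 : ℝ) < q := by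
    exact_mod_cast (by omega : 0 < q)
  unfold kappa
  have : 0 < min (1 / (2 * (q : ℝ) ^ ((2 * R + 1) ^ 2)))
    (Δ / (2 * ((2 : ℝ) ^ ((2 * R + 1) ^ 2) * (((q : ℝ) ^ ((2 * R + 1) ^ 2)) ^ 2 * (J * 2))))) := by
    apply lt_min <;> positivity
  positivity

lemma kappa_le {q R : ℕ} (hq : 2 ≤ q) {J Δ : ℝ} (hJ : 0 < J) (hΔ : 0 < Δ) : kappa q R J Δ ≤ 1 / 16 := by
  have hq1 : (1 : ℝ) ≤ q := by
    exact_mod_cast (by omega : 1 ≤ q)
  unfold kappa
  set Q : ℝ := (q : ℝ) ^ ((2 * R + 1) ^ 2) with hQ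
  have hQ1 : 1 ≤ Q := one_le_pow₀ hq1
  set d := min (1 / (2 * Q)) (Δ / (2 * ((2 : ℝ) ^ ((2 * R + 1) ^ 2) * (Q ^ 2 * (J * 2))))) with hd
  have hd0 : 0 ≤ d := by
    rw [hd]
    apply le_min <;> positivity
  have hd1 : d ≤ 1 / 2 := by
    refine (min_le_left _ _).trans ?_
    rw [div_le_div_iff₀ (by positivity) (by norm_num)]
    linarith
  have : d ^ 2 ≤ 1 / 4 := by nlinarith
  linarith

/-- The one-sided bound. -/
theorem volume_one_sided {q : ℕ} (hq : 2 ≤ q) (R : ℕ) {J Δ : ℝ} (hJ : 0 < J) (hΔ : 0 < Δ) {L : ℕ}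
    {H : Matrix (Site L → Fin q) (Site L → Fin q) ℂ} {E₀ : ℝ} {Ω : (Site L → Fin q) → ℂ}
    (hH : Admissible R J H) (hg : IsGappedGround H Δ E₀ Ω) (A : Finset (Site L)) :
    vnEntropy (reduced Ω A) ≤ (A.card : ℝ) * Real.log q
      - kappa q R J Δ / (((2 * R + 1 : ℕ) : ℝ) ^ 2) * (A.card : ℝ)
      + kappa q R J Δ * ((edgeBoundary A).card : ℝ) := by
  obtain ⟨Y, h1, h2, h3⟩ := exists_colour_class R A
  have h4 := disjoint_blocks hq Ω hg.unit (ball R) (fun y => ball_entropy hq R hJ hΔ hH hg y) Y A h1 h2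
  have hκ := kappa_pos (R := R) hq hJ hΔ
  set κ := kappa q R J Δ with hκd
  set m : ℝ := (((2 * R + 1 : ℕ) : ℝ)) ^ 2 with hm
  have hm0 : 0 < m := by positivity
  have h5 : κ / m * (A.card : ℝ) ≤ κ * (Y.card : ℝ) + κ * ((edgeBoundary A).card : ℝ) := by
    rw [div_mul_eq_mul_div, div_le_iff₀ hm0]
    nlinarith
  nlinarith

/-- The Schmidt matrix of `Ω` across `A`. -/
noncomputable def schmidt {S : Type} [Fintype S] [DecidableEq S] {q : ℕ} (Ω : (S → Fin q) → ℂ)
    (A : Finset S) : Matrix (↥A → Fin q) ({x // x ∉ A} → Fin q) ℂ :=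
  Matrix.of fun a ω => Ω (glue A a ω)

lemma vnEntropy_mul_comm {n m : Type} [Fintype n] [DecidableEq n] [Fintype m] [DecidableEq m]
    (F : Matrix n m ℂ) (G : Matrix m n ℂ) : vnEntropy (F * G) = vnEntropy (G * F) := by
  have h := Matrix.charpoly_mul_comm' F G
  have hr := congrArg Polynomial.roots h
  have hp1 : (F * G).charpoly ≠ 0 := (Matrix.charpoly_monic _).ne_zero
  have hp2 : (G * F).charpoly ≠ 0 := (Matrix.charpoly_monic _).ne_zero
  rw [Polynomial.roots_mul (mul_ne_zero (pow_ne_zero _ Polynomial.X_ne_zero) hp1),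
    Polynomial.roots_mul (mul_ne_zero (pow_ne_zero _ Polynomial.X_ne_zero) hp2),
    Polynomial.roots_X_pow, Polynomial.roots_X_pow] at hr
  have hm := congrArg (fun s : Multiset ℂ => (s.map fun z => Real.negMulLog z.re).sum) hr
  simp only [Multiset.map_add, Multiset.sum_add, Multiset.map_nsmul, Multiset.sum_nsmul,
    Multiset.map_singleton, Multiset.sum_singleton, Complex.zero_re, Real.negMulLog_zero,
    smul_zero, zero_add] at hm
  exact hm

lemma vnEntropy_transpose {n : Type} [Fintype n] [DecidableEq n] (ρ : Matrix n n ℂ) :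
    vnEntropy ρᵀ = vnEntropy ρ := by
  unfold vnEntropy
  rw [Matrix.charpoly_transpose]

/-- Identification of configurations off `A` and configurations on `Aᶜ`. -/
def complEquiv {S : Type} [Fintype S] [DecidableEq S] {q : ℕ} (A : Finset S) :
    (↥(Aᶜ) → Fin q) ≃ ({x // x ∉ A} → Fin q) where
  toFun c := fun x => c ⟨x.1, Finset.mem_compl.2 x.2⟩
  invFun ω := fun x => ω ⟨x.1, Finset.mem_compl.1 x.2⟩
  left_inv c := rfl
  right_inv ω := rfl

/-- Identification of configurations off `Aᶜ` and configurations on `A`. -/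
def complEquiv' {S : Type} [Fintype S] [DecidableEq S] {q : ℕ} (A : Finset S) :
    ({x // x ∉ Aᶜ} → Fin q) ≃ (↥A → Fin q) where
  toFun c := fun x => c ⟨x.1, fun h => (Finset.mem_compl.1 h) x.2⟩
  invFun ω := fun x => ω ⟨x.1, by simpa using x.2⟩
  left_inv c := rfl
  right_inv ω := rfl

lemma glue_compl {S : Type} [Fintype S] [DecidableEq S] {q : ℕ} (A : Finset S) (c : ↥(Aᶜ) → Fin q)
    (ω : {x // x ∉ Aᶜ} → Fin q) :
    glue Aᶜ c ω = glue A (complEquiv' A ω) (complEquiv A c) := by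
  funext x
  by_cases h : x ∈ A
  · have h' : x ∉ Aᶜ := by simpa using h
    simp [glue, h, h', complEquiv']
  · have h' : x ∈ Aᶜ := by simpa using h
    simp [glue, h, complEquiv]

/-- Pure states have equal entropy on complementary regions. -/
theorem reduced_compl {S : Type} [Fintype S] [DecidableEq S] {q : ℕ} (Ω : (S → Fin q) → ℂ)
    (A : Finset S) : vnEntropy (reduced Ω Aᶜ) = vnEntropy (reduced Ω A) := by
  have h1 : reduced Ω A = schmidt Ω A * (schmidt Ω A)ᴴ := by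
    ext a b
    simp [reduced, schmidt, Matrix.mul_apply, Matrix.conjTranspose_apply]
  have h2 : Matrix.reindex (complEquiv A) (complEquiv A) (reduced Ω Aᶜ)
      = ((schmidt Ω A)ᴴ * schmidt Ω A)ᵀ := by
    ext u v
    simp only [Matrix.reindex_apply, Matrix.submatrix_apply, Matrix.transpose_apply, Matrix.mul_apply,
      Matrix.conjTranspose_apply, schmidt, Matrix.of_apply, reduced]
    rw [← Equiv.sum_comp (complEquiv' A)]
    refine Finset.sum_congr rfl fun ω _ => ?_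
    simp only [glue_compl, Equiv.apply_symm_apply]
    ring
  rw [← vnEntropy_reindex (complEquiv A) (reduced Ω Aᶜ), h2, vnEntropy_transpose, h1]
  exact (vnEntropy_mul_comm _ _).symm

lemma card_edgeBoundary_compl {L : ℕ} (A : Finset (Site L)) :
    (edgeBoundary Aᶜ).card = (edgeBoundary A).card := by
  apply Finset.card_equiv (Equiv.prodComm _ _)
  rintro ⟨x, y⟩
  simp only [edgeBoundary, Finset.mem_filter, Finset.mem_product, Finset.mem_compl,
    Equiv.prodComm_apply, Prod.swap_prod_mk, not_not]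
  rw [dist1_comm]
  tauto

/-- **Strict volume law.** For all `q ≥ 2`, `R`, `J > 0`, `Δ > 0` there are `0 < c < 1` and `C ≥ 0`,
independent of `L`, such that the ground state of any admissible Hamiltonian on `Λ_L` with gap at
least `Δ` satisfies `S(A) ≤ (1 - c) min(|A|, |Aᶜ|) log q + C |∂A|` for every region `A`. -/
theorem strict_volume_law (q : ℕ) (hq : 2 ≤ q) (R : ℕ) (J Δ : ℝ) (hJ : 0 < J) (hΔ : 0 < Δ) :
    ∃ c C : ℝ, 0 < c ∧ c < 1 ∧ 0 ≤ C ∧
      ∀ (L : ℕ) (H : Matrix (Site L → Fin q) (Site L → Fin q) ℂ) (E₀ : ℝ)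
        (Ω : (Site L → Fin q) → ℂ), Admissible R J H → IsGappedGround H Δ E₀ Ω →
        ∀ A : Finset (Site L),
          vnEntropy (reduced Ω A) ≤ (1 - c) * (min A.card Aᶜ.card : ℕ) * Real.log q
            + C * ((edgeBoundary A).card : ℝ) := by
  have hκ := kappa_pos (R := R) hq hJ hΔ
  have hκ16 := kappa_le (R := R) hq hJ hΔ
  set κ := kappa q R J Δ with hκd
  set m : ℝ := (((2 * R + 1 : ℕ) : ℝ)) ^ 2 with hm
  have hm1 : 1 ≤ m := by
    rw [hm]
    exact one_le_pow₀ (by exact_mod_cast (by omega : 1 ≤ 2 * R + 1))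
  have hq2 : (2 : ℝ) ≤ q := by exact_mod_cast hq
  have hlog : (1 / 2 : ℝ) < Real.log q := by
    have h1 := Real.log_two_gt_d9
    have h2 : Real.log 2 ≤ Real.log q := Real.log_le_log (by norm_num) hq2
    linarith
  have hlog0 : 0 < Real.log q := by linarith
  refine ⟨κ / (m * Real.log q), κ, by positivity, ?_, hκ.le, ?_⟩
  · rw [div_lt_one (by positivity)]
    nlinarith
  · intro L H E₀ Ω hH hg A
    have key : ∀ A' : Finset (Site L), vnEntropy (reduced Ω A') ≤
        (1 - κ / (m * Real.log q)) * (A'.card : ℝ) * Real.log q + κ * ((edgeBoundary A').card : ℝ) := by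
      intro A'
      have := volume_one_sided hq R hJ hΔ hH hg A'
      have e : (1 - κ / (m * Real.log q)) * (A'.card : ℝ) * Real.log q
          = (A'.card : ℝ) * Real.log q - κ / m * (A'.card : ℝ) := by
        field_simp
      rw [e]
      exact this
    rcases le_total A.card Aᶜ.card with hle | hle
    · rw [min_eq_left hle]
      exact key A
    · rw [min_eq_right hle]
      have := key Aᶜ
      rwa [reduced_compl, card_edgeBoundary_compl] at this

end Vale.Agent.Lib.P356
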