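import Vale.Agent.Lib.P356.Entropy

set_option linter.unusedSectionVars false
set_option linter.unusedVariables false

/-!
Reduced density matrices of a vector in `(ℂ^q)^{⊗ S}` for a finite site set `S`; positivity, trace,
subadditivity overlay disjoint unions, and the formula `⟨ψ, lift g ψ⟩ = tr (g ρ)`.
-/

namespace Vale.Agent.Lib.P356

open Finset Matrix
open scoped ComplexOrder

variable {S : Type} [Fintype S] [DecidableEq S] {q : ℕ}

/-- The configuration equal to `a` on `A` and to `ω` off `A`. -/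
def glue (A : Finset S) (a : ↥A → Fin q) (ω : {x // x ∉ A} → Fin q) : S → Fin q :=
  fun x => if h : x ∈ A then a ⟨x, h⟩ else ω ⟨x, h⟩

/-- The reduced density matrix `Tr_{Aᶜ} |Ω⟩⟨Ω|` in the product basis. -/
noncomputable def reduced (Ω : (S → Fin q) → ℂ) (A : Finset S) :
    Matrix (↥A → Fin q) (↥A → Fin q) ℂ :=
  Matrix.of fun a b => ∑ ω : {x // x ∉ A} → Fin q, Ω (glue A a ω) * star (Ω (glue A b ω))

/-- The operator `k ⊗ I`, with `k` acting on the factors in `X` and the identity elsewhere. -/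
noncomputable def liftOp (X : Finset S) (k : Matrix (↥X → Fin q) (↥X → Fin q) ℂ) :
    Matrix (S → Fin q) (S → Fin q) ℂ :=
  Matrix.of fun σ τ => if ∀ x, x ∉ X → σ x = τ x then k (fun x => σ x) (fun x => τ x) else 0

/-- Restriction of a configuration to `A`. -/
def restr (A : Finset S) (σ : S → Fin q) : ↥A → Fin q := fun x => σ x

/-- Restriction of a configuration to the complement of `A`. -/
def restrC (A : Finset S) (σ : S → Fin q) : {x // x ∉ A} → Fin q := fun x => σ x

/-- Configurations are pairs of configurations on `A` and off `A`. -/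
def glueEquiv (A : Finset S) : (↥A → Fin q) × ({x // x ∉ A} → Fin q) ≃ (S → Fin q) where
  toFun p := glue A p.1 p.2
  invFun σ := (restr A σ, restrC A σ)
  left_inv p := by
    rcases p with ⟨a, ω⟩
    refine Prod.ext ?_ ?_
    · funext x
      simp [restr, glue, x.2]
    · funext x
      simp [restrC, glue, x.2]
  right_inv σ := by
    funext x
    by_cases h : x ∈ A <;> simp [glue, restr, restrC, h]

lemma sum_config {β : Type} [AddCommMonoid β] (A : Finset S) (f : (S → Fin q) → β) :
    ∑ σ, f σ = ∑ a : ↥A → Fin q, ∑ ω : {x // x ∉ A} → Fin q, f (glue A a ω) := by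
  rw [← Equiv.sum_comp (glueEquiv A) f, Fintype.sum_prod_type]
  rfl

lemma reduced_posSemidef (Ω : (S → Fin q) → ℂ) (A : Finset S) : (reduced Ω A).PosSemidef := by
  have : reduced Ω A = (Matrix.of fun a ω => Ω (glue A a ω)) *
      (Matrix.of fun (a : ↥A → Fin q) (ω : {x // x ∉ A} → Fin q) => Ω (glue A a ω))ᴴ := by
    ext a b
    simp [reduced, Matrix.mul_apply, Matrix.conjTranspose_apply]
  rw [this]
  exact Matrix.posSemidef_self_mul_conjTranspose _

lemma reduced_trace (Ω : (S → Fin q) → ℂ) (A : Finset S) :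
    (reduced Ω A).trace = ((∑ σ, Complex.normSq (Ω σ) : ℝ) : ℂ) := by
  rw [sum_config A (fun σ => Complex.normSq (Ω σ))]
  simp only [Matrix.trace, Matrix.diag, reduced, Matrix.of_apply]
  push_cast
  refine Finset.sum_congr rfl fun a _ => Finset.sum_congr rfl fun ω _ => ?_
  rw [Complex.star_def, Complex.mul_conj]

/-- Changing `σ` to `b` on `A`. -/
def overlay (A : Finset S) (b : ↥A → Fin q) (σ : S → Fin q) : S → Fin q :=
  fun x => if h : x ∈ A then b ⟨x, h⟩ else σ x

lemma restr_glue (A : Finset S) (a : ↥A → Fin q) (ω : {x // x ∉ A} → Fin q) :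
    restr A (glue A a ω) = a := by
  funext x
  simp [restr, glue, x.2]

lemma overlay_glue (A : Finset S) (a b : ↥A → Fin q) (ω : {x // x ∉ A} → Fin q) :
    overlay A b (glue A a ω) = glue A b ω := by
  funext x
  by_cases h : x ∈ A <;> simp [overlay, glue, h]

lemma reduced_apply_overlay (Ω : (S → Fin q) → ℂ) (A : Finset S) (a b : ↥A → Fin q) :
    reduced Ω A a b = ∑ σ, if restr A σ = a then Ω σ * star (Ω (overlay A b σ)) else 0 := by
  rw [sum_config A]
  simp only [restr_glue, overlay_glue]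
  simp [reduced, Finset.sum_ite_eq']

/-- Merging configurations on disjoint sets. -/
def mergeEquiv (A₁ A₂ : Finset S) (hd : Disjoint A₁ A₂) :
    (↥(A₁ ∪ A₂) → Fin q) ≃ (↥A₁ → Fin q) × (↥A₂ → Fin q) where
  toFun a := (fun x => a ⟨x, Finset.mem_union_left _ x.2⟩,
    fun x => a ⟨x, Finset.mem_union_right _ x.2⟩)
  invFun p := fun z => if h : z.1 ∈ A₁ then p.1 ⟨z.1, h⟩ else
    p.2 ⟨z.1, (Finset.mem_union.1 z.2).resolve_left h⟩
  left_inv a := by
    funext z
    by_cases h : z.1 ∈ A₁ <;> simp [h]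
  right_inv p := by
    rcases p with ⟨x, c⟩
    refine Prod.ext ?_ ?_
    · funext z
      simp [z.2]
    · funext z
      have : z.1 ∉ A₁ := Finset.disjoint_right.1 hd z.2
      simp [this]

lemma mergeEquiv_restr (A₁ A₂ : Finset S) (hd : Disjoint A₁ A₂) (σ : S → Fin q) :
    mergeEquiv A₁ A₂ hd (restr (A₁ ∪ A₂) σ) = (restr A₁ σ, restr A₂ σ) := rfl

lemma overlay_merge_left (A₁ A₂ : Finset S) (hd : Disjoint A₁ A₂) (x' : ↥A₁ → Fin q) (σ : S → Fin q) :
    overlay (A₁ ∪ A₂) ((mergeEquiv A₁ A₂ hd).symm (x', restr A₂ σ)) σ = overlay A₁ x' σ := by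
  funext z
  by_cases h1 : z ∈ A₁
  · have : z ∈ A₁ ∪ A₂ := Finset.mem_union_left _ h1
    simp [overlay, mergeEquiv, h1, this]
  · by_cases h2 : z ∈ A₂
    · have : z ∈ A₁ ∪ A₂ := Finset.mem_union_right _ h2
      simp [overlay, mergeEquiv, h1, this, restr]
    · have : z ∉ A₁ ∪ A₂ := by simp [h1, h2]
      simp [overlay, h1, this]

lemma overlay_merge_right (A₁ A₂ : Finset S) (hd : Disjoint A₁ A₂) (c' : ↥A₂ → Fin q) (σ : S → Fin q) :
    overlay (A₁ ∪ A₂) ((mergeEquiv A₁ A₂ hd).symm (restr A₁ σ, c')) σ = overlay A₂ c' σ := by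
  funext z
  by_cases h1 : z ∈ A₁
  · have : z ∈ A₁ ∪ A₂ := Finset.mem_union_left _ h1
    have h2 : z ∉ A₂ := Finset.disjoint_left.1 hd h1
    simp [overlay, mergeEquiv, h1, this, h2, restr]
  · by_cases h2 : z ∈ A₂
    · have : z ∈ A₁ ∪ A₂ := Finset.mem_union_right _ h2
      simp [overlay, mergeEquiv, h1, this, h2]
    · have : z ∉ A₁ ∪ A₂ := by simp [h1, h2]
      simp [overlay, h2, this]

lemma restr_eq_symm_iff (A₁ A₂ : Finset S) (hd : Disjoint A₁ A₂) (σ : S → Fin q)
    (x : ↥A₁ → Fin q) (c : ↥A₂ → Fin q) :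
    restr (A₁ ∪ A₂) σ = (mergeEquiv A₁ A₂ hd).symm (x, c) ↔ restr A₁ σ = x ∧ restr A₂ σ = c := by
  rw [Equiv.eq_symm_apply, mergeEquiv_restr, Prod.mk.injEq]

lemma ptrL_reduced (Ω : (S → Fin q) → ℂ) (A₁ A₂ : Finset S) (hd : Disjoint A₁ A₂) :
    ptrL (Matrix.reindex (mergeEquiv A₁ A₂ hd) (mergeEquiv A₁ A₂ hd) (reduced Ω (A₁ ∪ A₂)))
      = reduced Ω A₁ := by
  ext x x'
  simp only [ptrL, Matrix.of_apply, Matrix.reindex_apply, Matrix.submatrix_apply]
  rw [reduced_apply_overlay]
  simp only [reduced_apply_overlay, restr_eq_symm_iff]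
  rw [Finset.sum_comm]
  refine Finset.sum_congr rfl fun σ _ => ?_
  by_cases hx : restr A₁ σ = x
  · simp only [hx, true_and, if_true]
    rw [Finset.sum_ite_eq]
    simp only [Finset.mem_univ, if_true]
    rw [overlay_merge_left]
  · simp [hx]

lemma ptrR_reduced (Ω : (S → Fin q) → ℂ) (A₁ A₂ : Finset S) (hd : Disjoint A₁ A₂) :
    ptrR (Matrix.reindex (mergeEquiv A₁ A₂ hd) (mergeEquiv A₁ A₂ hd) (reduced Ω (A₁ ∪ A₂)))
      = reduced Ω A₂ := by
  ext c c'
  simp only [ptrR, Matrix.of_apply, Matrix.reindex_apply, Matrix.submatrix_apply]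
  rw [reduced_apply_overlay]
  simp only [reduced_apply_overlay, restr_eq_symm_iff]
  rw [Finset.sum_comm]
  refine Finset.sum_congr rfl fun σ _ => ?_
  by_cases hx : restr A₂ σ = c
  · simp only [hx, and_true, if_true]
    rw [Finset.sum_ite_eq]
    simp only [Finset.mem_univ, if_true]
    rw [overlay_merge_right]
  · simp [hx]

lemma reindex_posSemidef {n m : Type} [Fintype n] [DecidableEq n] [Fintype m] [DecidableEq m]
    (e : n ≃ m) {ρ : Matrix n n ℂ} (h : ρ.PosSemidef) : (Matrix.reindex e e ρ).PosSemidef := by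
  simpa [Matrix.reindex_apply] using h.submatrix e.symm

/-- Subadditivity of the entropy of reduced density matrices overlay disjoint unions. -/
theorem reduced_subadd (Ω : (S → Fin q) → ℂ) (hu : ∑ σ, Complex.normSq (Ω σ) = 1)
    (A₁ A₂ : Finset S) (hd : Disjoint A₁ A₂) :
    vnEntropy (reduced Ω (A₁ ∪ A₂)) ≤ vnEntropy (reduced Ω A₁) + vnEntropy (reduced Ω A₂) := by
  set e := mergeEquiv (q := q) A₁ A₂ hd with he
  have h := vnEntropy_subadd (ρ := Matrix.reindex e e (reduced Ω (A₁ ∪ A₂)))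
    (reindex_posSemidef e (reduced_posSemidef Ω _))
    (by
      have : (Matrix.reindex e e (reduced Ω (A₁ ∪ A₂))).trace = (reduced Ω (A₁ ∪ A₂)).trace := by
        simp only [Matrix.trace, Matrix.diag, Matrix.reindex_apply, Matrix.submatrix_apply]
        exact Equiv.sum_comp e.symm (fun a => reduced Ω (A₁ ∪ A₂) a a)
      rw [this, reduced_trace, hu]
      simp)
    (by rw [he, ptrL_reduced]; exact reduced_posSemidef Ω _)
    (by rw [he, ptrR_reduced]; exact reduced_posSemidef Ω _)
  rw [vnEntropy_reindex, he, ptrL_reduced, ptrR_reduced] at h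
  exact h

/-- The trace formula `⟨ψ, (g ⊗ I) ψ⟩ = tr (g ρ_B)`. -/
lemma qf_lift (ψ : (S → Fin q) → ℂ) (B : Finset S) (g : Matrix (↥B → Fin q) (↥B → Fin q) ℂ) :
    ∑ σ, ∑ τ, star (ψ σ) * liftOp B g σ τ * ψ τ
      = ∑ a, ∑ b, g a b * reduced ψ B b a := by
  rw [sum_config B]
  have key : ∀ (a : ↥B → Fin q) (ω : {x // x ∉ B} → Fin q),
      ∑ τ, star (ψ (glue B a ω)) * liftOp B g (glue B a ω) τ * ψ τ
        = ∑ b, star (ψ (glue B a ω)) * g a b * ψ (glue B b ω) := by
    intro a ω
    rw [sum_config B]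
    refine Finset.sum_congr rfl fun b _ => ?_
    rw [Finset.sum_eq_single ω]
    · have h1 : restr B (glue B a ω) = a := restr_glue B a ω
      have h2 : restr B (glue B b ω) = b := restr_glue B b ω
      have : liftOp B g (glue B a ω) (glue B b ω) = g a b := by
        simp only [liftOp, Matrix.of_apply]
        rw [if_pos]
        · exact congrArg₂ g h1 h2
        · intro x hx
          simp [glue, hx]
      rw [this]
    · intro ω' _ hne
      have : liftOp B g (glue B a ω) (glue B b ω') = 0 := by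
        simp only [liftOp, Matrix.of_apply]
        rw [if_neg]
        intro hall
        apply hne
        funext z
        have := hall z.1 z.2
        simpa [glue, z.2] using this.symm
      rw [this]
      simp
    · simp
  simp only [key]
  have : ∀ a : ↥B → Fin q, ∑ ω : {x // x ∉ B} → Fin q,
      ∑ b, star (ψ (glue B a ω)) * g a b * ψ (glue B b ω) = ∑ b, g a b * reduced ψ B b a := by
    intro a
    rw [Finset.sum_comm]
    refine Finset.sum_congr rfl fun b _ => ?_
    simp only [reduced, Matrix.of_apply]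
    rw [Finset.mul_sum]
    refine Finset.sum_congr rfl fun ω _ => ?_
    ring
  simp only [this]

/-- A term on `X ⊆ B` is a term on `B`. -/
noncomputable def extendOp (X B : Finset S) (hXB : X ⊆ B) (k : Matrix (↥X → Fin q) (↥X → Fin q) ℂ) :
    Matrix (↥B → Fin q) (↥B → Fin q) ℂ :=
  Matrix.of fun a b => if ∀ x : ↥B, x.1 ∉ X → a x = b x then
    k (fun x => a ⟨x.1, hXB x.2⟩) (fun x => b ⟨x.1, hXB x.2⟩) else 0

lemma liftOp_extendOp (X B : Finset S) (hXB : X ⊆ B) (k : Matrix (↥X → Fin q) (↥X → Fin q) ℂ) :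
    liftOp B (extendOp X B hXB k) = liftOp X k := by
  ext σ τ
  simp only [liftOp, extendOp, Matrix.of_apply]
  by_cases h : ∀ x, x ∉ X → σ x = τ x
  · rw [if_pos h, if_pos, if_pos]
    · intro x hx
      exact h x.1 hx
    · intro x hx
      exact h x fun hh => hx (hXB hh)
  · rw [if_neg h]
    by_cases h2 : ∀ x, x ∉ B → σ x = τ x
    · rw [if_pos h2, if_neg]
      intro h3
      apply h
      intro x hx
      by_cases hB : x ∈ B
      · exact h3 ⟨x, hB⟩ hx
      · exact h2 x hB
    · rw [if_neg h2]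

end Vale.Agent.Lib.P356
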